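import Mathlib

set_option linter.unusedSectionVars false

namespace Vale.Agent.P358

open Matrix Polynomial
open scoped ComplexOrder

variable {n m : Type} [Fintype n] [DecidableEq n] [Fintype m] [DecidableEq m]

/-- Sum of `f` over the (real parts of the) roots of the characteristic polynomial. -/
noncomputable def trf (f : ℝ → ℝ) (A : Matrix n n ℂ) : ℝ :=
  (A.charpoly.roots.map (fun z => f z.re)).sum

lemma trf_of_charpoly {ι : Type} [Fintype ι] (f : ℝ → ℝ) {A : Matrix n n ℂ} (d : ι → ℝ)
    (h : A.charpoly = ∏ i, (X - C (d i : ℂ))) : trf f A = ∑ i, f (d i) := by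
  unfold trf
  rw [h, Polynomial.roots_prod]
  · simp
  · simp [Finset.prod_ne_zero_iff, Polynomial.X_sub_C_ne_zero]

lemma trf_eq (f : ℝ → ℝ) {A : Matrix n n ℂ} (hA : A.IsHermitian) :
    trf f A = ∑ i, f (hA.eigenvalues i) :=
  trf_of_charpoly f _ hA.charpoly_eq

lemma trf_submatrix (f : ℝ → ℝ) (A : Matrix n n ℂ) (e : m ≃ n) :
    trf f (A.submatrix e e) = trf f A := by
  unfold trf
  have : A.submatrix e e = reindex e.symm e.symm A := rfl
  rw [this, Matrix.charpoly_reindex]

lemma trf_conj_diag (f : ℝ → ℝ) (U : Matrix n n ℂ) (hU : star U * U = 1) (d : n → ℝ) :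
    trf f (U * diagonal (fun i => (d i : ℂ)) * star U) = ∑ i, f (d i) := by
  apply trf_of_charpoly
  rw [charpoly_mul_comm, ← mul_assoc, hU, one_mul, charpoly_diagonal]

lemma trf_diag (f : ℝ → ℝ) (d : n → ℝ) :
    trf f (diagonal (fun i => (d i : ℂ))) = ∑ i, f (d i) := by
  apply trf_of_charpoly
  rw [charpoly_diagonal]

/-- The eigenvector unitary as a plain matrix. -/
noncomputable def evU {A : Matrix n n ℂ} (hA : A.IsHermitian) : Matrix n n ℂ :=
  (hA.eigenvectorUnitary : Matrix n n ℂ)

lemma evU_star_mul {A : Matrix n n ℂ} (hA : A.IsHermitian) : star (evU hA) * evU hA = 1 :=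
  Unitary.coe_star_mul_self _

lemma evU_mul_star {A : Matrix n n ℂ} (hA : A.IsHermitian) : evU hA * star (evU hA) = 1 :=
  Unitary.coe_mul_star_self _

lemma spec {A : Matrix n n ℂ} (hA : A.IsHermitian) :
    A = evU hA * diagonal (fun i => (hA.eigenvalues i : ℂ)) * star (evU hA) := by
  conv_lhs => rw [hA.spectral_theorem]
  rfl

lemma spec' {A : Matrix n n ℂ} (hA : A.IsHermitian) :
    star (evU hA) * A * evU hA = diagonal (fun i => (hA.eigenvalues i : ℂ)) := by
  conv_lhs => enter [1, 2]; rw [spec hA]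
  calc star (evU hA) * (evU hA * diagonal (fun i => (hA.eigenvalues i : ℂ)) * star (evU hA))
        * evU hA
      = (star (evU hA) * evU hA) * diagonal (fun i => (hA.eigenvalues i : ℂ))
        * (star (evU hA) * evU hA) := by simp only [mul_assoc]
    _ = _ := by rw [evU_star_mul, one_mul, mul_one]

/-- Real part of the diagonal entries of `A` in the basis given by the columns of `V`. -/
noncomputable def dg (V A : Matrix n n ℂ) (k : n) : ℝ := ((star V * A * V) k k).re

lemma dg_add (V A B : Matrix n n ℂ) (k : n) : dg V (A + B) k = dg V A k + dg V B k := by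
  simp [dg, mul_add, add_mul]

lemma dg_sub (V A B : Matrix n n ℂ) (k : n) : dg V (A - B) k = dg V A k - dg V B k := by
  simp [dg, mul_sub, sub_mul]

lemma dg_smul (V A : Matrix n n ℂ) (c : ℝ) (k : n) : dg V ((c : ℂ) • A) k = c * dg V A k := by
  simp [dg]

lemma dg_evU {A : Matrix n n ℂ} (hA : A.IsHermitian) (k : n) :
    dg (evU hA) A k = hA.eigenvalues k := by
  simp [dg, spec' hA]

lemma dg_one (A : Matrix n n ℂ) (k : n) : dg 1 A k = (A k k).re := by
  simp [dg]

lemma dg_nonneg (V : Matrix n n ℂ) {A : Matrix n n ℂ} (hA : A.PosSemidef) (k : n) :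
    0 ≤ dg V A k := by
  have h := (hA.conjTranspose_mul_mul_same V).diag_nonneg (i := k)
  exact (Complex.nonneg_iff.mp h).1

lemma sum_dg (V : Matrix n n ℂ) (hV : V * star V = 1) (A : Matrix n n ℂ) :
    ∑ k, dg V A k = A.trace.re := by
  have : (star V * A * V).trace = A.trace := by
    rw [trace_mul_cycle, hV, one_mul]
  rw [← this]
  simp [dg, Matrix.trace]

lemma sum_eig {A : Matrix n n ℂ} (hA : A.IsHermitian) :
    ∑ i, hA.eigenvalues i = A.trace.re := by
  rw [hA.trace_eq_sum_eigenvalues]; simp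

lemma diag_conj_entry (W : Matrix n n ℂ) (d : n → ℝ) (k : n) :
    ((W * diagonal (fun i => (d i : ℂ)) * star W) k k).re
      = ∑ i, Complex.normSq (W k i) * d i := by
  rw [Matrix.mul_apply, Complex.re_sum]
  refine Finset.sum_congr rfl fun i _ => ?_
  rw [mul_diagonal, star_apply]
  have : W k i * (d i : ℂ) * star (W k i) = ((Complex.normSq (W k i) * d i : ℝ) : ℂ) := by
    rw [Complex.ofReal_mul, Complex.normSq_eq_conj_mul_self]
    simp only [RCLike.star_def]; ring
  rw [this, Complex.ofReal_re]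

lemma row_normSq (W : Matrix n n ℂ) (hW : W * star W = 1) (k : n) :
    ∑ i, Complex.normSq (W k i) = 1 := by
  have h := diag_conj_entry W (fun _ => 1) k
  simp only [Complex.ofReal_one, diagonal_one, mul_one, hW, one_apply_eq, Complex.one_re] at h
  exact h.symm

lemma col_normSq (W : Matrix n n ℂ) (hW : star W * W = 1) (i : n) :
    ∑ k, Complex.normSq (W k i) = 1 := by
  have h := row_normSq (star W) (by rw [star_star]; exact hW) i
  simpa [star_apply] using h

/-- Pinching inequality for concave functions. -/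
lemma pinch {s : Set ℝ} {f : ℝ → ℝ} (hf : ConcaveOn ℝ s f) {A : Matrix n n ℂ}
    (hA : A.IsHermitian) (hs : ∀ i, hA.eigenvalues i ∈ s) (V : Matrix n n ℂ)
    (hV : star V * V = 1) : trf f A ≤ ∑ k, f (dg V A k) := by
  have hV' : V * star V = 1 := mul_eq_one_comm.mp hV
  set W := star V * evU hA with hW
  have hW1 : W * star W = 1 := by
    rw [hW, star_mul, star_star]
    calc star V * evU hA * (star (evU hA) * V)
        = star V * (evU hA * star (evU hA)) * V := by simp only [mul_assoc]
      _ = 1 := by rw [evU_mul_star, mul_one, hV]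
  have hW2 : star W * W = 1 := mul_eq_one_comm.mp hW1
  have hd : ∀ k, dg V A k = ∑ i, Complex.normSq (W k i) * hA.eigenvalues i := by
    intro k
    rw [← diag_conj_entry]
    unfold dg
    congr 2
    conv_lhs => rw [spec hA]
    rw [hW, star_mul, star_star]
    simp only [mul_assoc]
  rw [trf_eq f hA]
  calc ∑ i, f (hA.eigenvalues i)
      = ∑ i, (∑ k, Complex.normSq (W k i)) * f (hA.eigenvalues i) := by
        refine Finset.sum_congr rfl fun i _ => ?_
        rw [col_normSq W hW2, one_mul]
    _ = ∑ k, ∑ i, Complex.normSq (W k i) * f (hA.eigenvalues i) := by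
        simp_rw [Finset.sum_mul]; rw [Finset.sum_comm]
    _ ≤ ∑ k, f (dg V A k) := by
        refine Finset.sum_le_sum fun k _ => ?_
        rw [hd k]
        have := hf.le_map_sum (t := Finset.univ) (w := fun i => Complex.normSq (W k i))
          (p := fun i => hA.eigenvalues i) (fun i _ => Complex.normSq_nonneg _)
          (row_normSq W hW1 k) (fun i _ => hs i)
        simpa [smul_eq_mul] using this

/-- The real quadratic form of a matrix. -/
noncomputable def qf (H : Matrix n n ℂ) (w : n → ℂ) : ℝ := (star w ⬝ᵥ H *ᵥ w).re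

lemma qf_conj (W : Matrix n n ℂ) (d : n → ℝ) (w : n → ℂ) :
    qf (W * diagonal (fun i => (d i : ℂ)) * star W) w
      = ∑ i, d i * Complex.normSq ((star W *ᵥ w) i) := by
  unfold qf
  rw [← mulVec_mulVec, ← mulVec_mulVec, dotProduct_mulVec]
  have : star w ᵥ* W = star (star W *ᵥ w) := by
    rw [star_mulVec]; simp [star_eq_conjTranspose]
  rw [this]
  unfold dotProduct
  rw [Complex.re_sum]
  refine Finset.sum_congr rfl fun i _ => ?_
  rw [mulVec_diagonal, Pi.star_apply]
  have : star ((star W *ᵥ w) i) * ((d i : ℂ) * (star W *ᵥ w) i)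
      = ((d i * Complex.normSq ((star W *ᵥ w) i) : ℝ) : ℂ) := by
    rw [Complex.ofReal_mul, Complex.normSq_eq_conj_mul_self]
    simp only [RCLike.star_def]; ring
  rw [this, Complex.ofReal_re]

lemma qf_eig {H : Matrix n n ℂ} (hH : H.IsHermitian) (w : n → ℂ) :
    qf H w = ∑ i, hH.eigenvalues i * Complex.normSq ((star (evU hH) *ᵥ w) i) := by
  conv_lhs => rw [spec hH]
  exact qf_conj _ _ _

lemma qf_one_eig {H : Matrix n n ℂ} (hH : H.IsHermitian) (w : n → ℂ) :
    qf 1 w = ∑ i, Complex.normSq ((star (evU hH) *ᵥ w) i) := by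
  have h := qf_conj (evU hH) (fun _ => 1) w
  simp only [Complex.ofReal_one, diagonal_one, mul_one, evU_mul_star, one_mul] at h
  exact h

/-- Counting eigenvalues by a subspace argument. -/
lemma count_le {Y : Matrix n n ℂ} (hY : Y.IsHermitian) {U : Matrix m m ℂ} (hU : U.IsHermitian)
    (L : Matrix m n ℂ) (s x : ℝ)
    (h : ∀ w : n → ℂ, s * qf 1 w < qf Y w → x * qf 1 (L *ᵥ w) < qf U (L *ᵥ w)) :
    (Finset.univ.filter fun i => s < hY.eigenvalues i).card
      ≤ (Finset.univ.filter fun j => x < hU.eigenvalues j).card := by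
  by_contra hlt
  push Not at hlt
  let S := {i // s < hY.eigenvalues i}
  let T := {j // x < hU.eigenvalues j}
  let ext : (S → ℂ) →ₗ[ℂ] (n → ℂ) :=
    { toFun := fun α i => if hi : s < hY.eigenvalues i then α ⟨i, hi⟩ else 0
      map_add' := by intro a b; funext i; by_cases hi : s < hY.eigenvalues i <;> simp [hi]
      map_smul' := by intro c a; funext i; by_cases hi : s < hY.eigenvalues i <;> simp [hi] }
  let res : (m → ℂ) →ₗ[ℂ] (T → ℂ) := LinearMap.funLeft ℂ ℂ (fun j : T => j.1)
  let Φ : (S → ℂ) →ₗ[ℂ] (T → ℂ) :=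
    res ∘ₗ (Matrix.mulVecLin (star (evU hU) * L * evU hY)) ∘ₗ ext
  have hdim : Module.finrank ℂ (T → ℂ) < Module.finrank ℂ (S → ℂ) := by
    simp only [Module.finrank_fintype_fun_eq_card, S, T, Fintype.card_subtype]
    exact hlt
  obtain ⟨α, hα, hα0⟩ := Submodule.exists_mem_ne_zero_of_ne_bot
    (LinearMap.ker_ne_bot_of_finrank_lt (f := Φ) hdim)
  set β := ext α with hβ
  set w := evU hY *ᵥ β with hw
  have hβw : star (evU hY) *ᵥ w = β := by
    rw [hw, mulVec_mulVec, evU_star_mul, one_mulVec]
  have h1 : s * qf 1 w < qf Y w := by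
    rw [qf_eig hY, qf_one_eig hY, hβw, Finset.mul_sum]
    obtain ⟨i0, hi0⟩ := Function.ne_iff.mp hα0
    apply Finset.sum_lt_sum
    · intro i _
      by_cases hi : s < hY.eigenvalues i
      · exact mul_le_mul_of_nonneg_right hi.le (Complex.normSq_nonneg _)
      · have : β i = 0 := by simp [hβ, ext, hi]
        simp [this]
    · refine ⟨i0.1, Finset.mem_univ _, ?_⟩
      have : β i0.1 = α i0 := by simp [hβ, ext, i0.2]
      rw [this]
      exact mul_lt_mul_of_pos_right i0.2 (Complex.normSq_pos.mpr hi0)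
  have h2 := h w h1
  rw [qf_eig hU, qf_one_eig hU, Finset.mul_sum] at h2
  refine absurd h2 (not_lt.mpr (Finset.sum_le_sum fun j _ => ?_))
  by_cases hj : x < hU.eigenvalues j
  · have : (star (evU hU) *ᵥ (L *ᵥ w)) j = 0 := by
      have h3 := congrFun (LinearMap.mem_ker.mp hα) ⟨j, hj⟩
      simp only [Φ, res, LinearMap.comp_apply, LinearMap.funLeft_apply, mulVecLin_apply,
        Pi.zero_apply] at h3
      rw [hw, mulVec_mulVec, mulVec_mulVec]
      exact h3
    simp [this]
  · exact mul_le_mul_of_nonneg_right (not_lt.mp hj) (Complex.normSq_nonneg _)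

end Vale.Agent.P358
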