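import Mathlib

namespace Vale.Agent.P358

open scoped ComplexOrder

open Classical in
/-- Von Neumann entropy in bits: the sum of `-x * log₂ x` over the eigenvalues
(with multiplicity) of a Hermitian matrix. -/
noncomputable def vnEntropy {ι : Type} [Fintype ι] [DecidableEq ι] (ρ : Matrix ι ι ℂ) : ℝ :=
  if h : ρ.IsHermitian then ∑ i, -(h.eigenvalues i * Real.logb 2 (h.eigenvalues i)) else 0

/-- Density matrices: positive semidefinite of trace one. -/
def IsState {ι : Type} [Fintype ι] (ρ : Matrix ι ι ℂ) : Prop :=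
  ρ.PosSemidef ∧ ρ.trace = 1

/-- The Holevo quantities of all finite input ensembles. -/
def holevoSet {ι κ : Type} [Fintype ι] [Fintype κ] [DecidableEq κ]
    (N : Matrix ι ι ℂ → Matrix κ κ ℂ) : Set ℝ :=
  {x | ∃ (m : ℕ) (p : Fin m → ℝ) (ρ : Fin m → Matrix ι ι ℂ),
    (∀ a, 0 ≤ p a) ∧ ∑ a, p a = 1 ∧ (∀ a, IsState (ρ a)) ∧
    x = vnEntropy (∑ a, (p a : ℂ) • N (ρ a)) - ∑ a, p a * vnEntropy (N (ρ a))}

/-- The Holevo capacity. -/
noncomputable def holevoCap {ι κ : Type} [Fintype ι] [Fintype κ] [DecidableEq κ]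
    (N : Matrix ι ι ℂ → Matrix κ κ ℂ) : ℝ :=
  sSup (holevoSet N)

/-- The `n`-fold tensor power of a linear map on matrices, written in the basis of matrix
units: it sends `E (K 0) (L 0) ⊗ ⋯ ⊗ E (K (n-1)) (L (n-1))` to the Kronecker product of the
images of the factors. -/
noncomputable def tensorPow {ι κ : Type} [Fintype ι] [DecidableEq ι]
    (N : Matrix ι ι ℂ → Matrix κ κ ℂ) (n : ℕ)
    (ρ : Matrix (Fin n → ι) (Fin n → ι) ℂ) : Matrix (Fin n → κ) (Fin n → κ) ℂ :=
  Matrix.of fun I J =>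
    ∑ K, ∑ L, ρ K L * ∏ m, N (Matrix.single (K m) (L m) 1) (I m) (J m)

/-- The classical capacity: the supremum over `n ≥ 1` of the Holevo capacity of the `n`-th
tensor power divided by `n`. -/
noncomputable def classicalCap {ι κ : Type} [Fintype ι] [DecidableEq ι] [Fintype κ]
    [DecidableEq κ] (N : Matrix ι ι ℂ → Matrix κ κ ℂ) : ℝ :=
  ⨆ n : ℕ, holevoCap (tensorPow N (n + 1)) / ((n : ℝ) + 1)

/-- The generalized amplitude-damping channel, extended linearly to all 2 by 2 matrices. -/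
noncomputable def gad (γ ν : ℝ) (ρ : Matrix (Fin 2) (Fin 2) ℂ) : Matrix (Fin 2) (Fin 2) ℂ :=
  !![ρ.trace - ((1 - γ) * ρ 1 1 + γ * ν * ρ.trace), Real.sqrt (1 - γ) * ρ 0 1;
     Real.sqrt (1 - γ) * ρ 1 0, (1 - γ) * ρ 1 1 + γ * ν * ρ.trace]

/-- Binary entropy in bits. -/
noncomputable def h2 (x : ℝ) : ℝ :=
  -(x * Real.logb 2 x) - (1 - x) * Real.logb 2 (1 - x)

/-- The one-variable function whose maximum over `[0,1]` is the capacity. -/
noncomputable def capFun (γ ν q : ℝ) : ℝ :=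
  h2 ((1 - γ) * q + γ * ν) -
    h2 ((1 + Real.sqrt (1 - 4 * (γ * ν * (1 - ν) + γ * (1 - γ) * (q - ν) ^ 2))) / 2)

end Vale.Agent.P358
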