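import Vale.Agent.P358.Basic

set_option linter.unusedSectionVars false

namespace Vale.Agent.P358

open Matrix
open scoped ComplexOrder

variable {n m E : Type} [Fintype n] [DecidableEq n] [Fintype m] [DecidableEq m]
  [Fintype E] [DecidableEq E]

lemma det_shift {H : Matrix n n ℂ} (hH : H.IsHermitian) (s : ℝ) :
    ((s : ℂ) • (1 : Matrix n n ℂ) + H).det = ((∏ i, (s + hH.eigenvalues i) : ℝ) : ℂ) := by
  have h : (s : ℂ) • (1 : Matrix n n ℂ) + H
      = evU hH * diagonal (fun i => ((s + hH.eigenvalues i : ℝ) : ℂ)) * star (evU hH) := by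
    have h2 : diagonal (fun i => ((s + hH.eigenvalues i : ℝ) : ℂ))
        = (s : ℂ) • (1 : Matrix n n ℂ) + diagonal (fun i => (hH.eigenvalues i : ℂ)) := by
      ext i j
      by_cases hij : i = j
      · subst hij; simp
      · simp [hij]
    rw [h2, mul_add, add_mul, ← spec hH, mul_smul_comm, smul_mul_assoc, mul_one, evU_mul_star]
  rw [h, det_mul, det_mul, mul_right_comm, ← det_mul, evU_mul_star, det_one, one_mul,
    det_diagonal]
  simp

lemma prod_shift_pos {H : Matrix n n ℂ} (hH : H.PosSemidef) {s : ℝ} (hs : 0 < s) :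
    0 < ∏ i, (s + hH.1.eigenvalues i) :=
  Finset.prod_pos fun i _ => add_pos_of_pos_of_nonneg hs (hH.eigenvalues_nonneg i)

lemma trf_log_shift {H : Matrix n n ℂ} (hH : H.PosSemidef) {s : ℝ} (hs : 0 < s) :
    trf (fun x => Real.log (s + x)) H = Real.log (∏ i, (s + hH.1.eigenvalues i)) := by
  rw [trf_eq _ hH.1, Real.log_prod]
  intro i _
  exact (add_pos_of_pos_of_nonneg hs (hH.eigenvalues_nonneg i)).ne'

lemma shift_posDef {P : Matrix n n ℂ} (hP : P.PosSemidef) {s : ℝ} (hs : 0 < s) :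
    ((s : ℂ) • (1 : Matrix n n ℂ) + P).PosDef := by
  apply PosDef.add_posSemidef _ hP
  exact PosDef.one.smul (by exact_mod_cast hs)

/-- The matrix `Aᴴ (s + P)⁻¹ A`. -/
noncomputable def Us (s : ℝ) (P : Matrix n n ℂ) (A : Matrix n E ℂ) : Matrix E E ℂ :=
  Aᴴ * ((s : ℂ) • (1 : Matrix n n ℂ) + P)⁻¹ * A

lemma Us_psd {P : Matrix n n ℂ} (hP : P.PosSemidef) {s : ℝ} (hs : 0 < s) (A : Matrix n E ℂ) :
    (Us s P A).PosSemidef :=
  (shift_posDef hP hs).inv.posSemidef.conjTranspose_mul_mul_same A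

/-- The block matrix of the main lemma. -/
def blk (A : Matrix n E ℂ) (C : Matrix m E ℂ) (P : Matrix n n ℂ) (Q : Matrix m m ℂ) :
    Matrix (n ⊕ m) (n ⊕ m) ℂ :=
  fromBlocks (A * Aᴴ + P) (A * Cᴴ) (C * Aᴴ) (C * Cᴴ + Q)

lemma blk_eq (A : Matrix n E ℂ) (C : Matrix m E ℂ) (P : Matrix n n ℂ) (Q : Matrix m m ℂ) :
    blk A C P Q = fromBlocks P 0 0 Q + fromRows A C * (fromRows A C)ᴴ := by
  rw [conjTranspose_fromRows_eq_fromCols_conjTranspose, fromRows_mul_fromCols, fromBlocks_add,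
    blk]
  simp [add_comm]

lemma fromBlocks_diag_psd {P : Matrix n n ℂ} {Q : Matrix m m ℂ} (hP : P.PosSemidef)
    (hQ : Q.PosSemidef) : (fromBlocks P 0 0 Q).PosSemidef := by
  have h1 := hP.mul_mul_conjTranspose_same (fromRows (1 : Matrix n n ℂ) (0 : Matrix m n ℂ))
  have h2 := hQ.mul_mul_conjTranspose_same (fromRows (0 : Matrix n m ℂ) (1 : Matrix m m ℂ))
  have h3 := h1.add h2
  convert h3 using 1
  rw [conjTranspose_fromRows_eq_fromCols_conjTranspose,
    conjTranspose_fromRows_eq_fromCols_conjTranspose, fromRows_mul _ _ P, fromRows_mul _ _ Q,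
    fromRows_mul_fromCols, fromRows_mul_fromCols, fromBlocks_add]
  simp

lemma blk_psd (A : Matrix n E ℂ) (C : Matrix m E ℂ) {P : Matrix n n ℂ} {Q : Matrix m m ℂ}
    (hP : P.PosSemidef) (hQ : Q.PosSemidef) : (blk A C P Q).PosSemidef := by
  rw [blk_eq]
  exact (fromBlocks_diag_psd hP hQ).add (posSemidef_self_mul_conjTranspose _)

lemma blk_det (A : Matrix n E ℂ) (C : Matrix m E ℂ) {P : Matrix n n ℂ} {Q : Matrix m m ℂ}
    (hP : P.PosSemidef) (hQ : Q.PosSemidef) {s : ℝ} (hs : 0 < s) :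
    ((s : ℂ) • (1 : Matrix (n ⊕ m) (n ⊕ m) ℂ) + blk A C P Q).det
      = ((s : ℂ) • (1 : Matrix n n ℂ) + P).det * ((s : ℂ) • (1 : Matrix m m ℂ) + Q).det
        * (((1 : ℝ) : ℂ) • (1 : Matrix E E ℂ) + (Us s P A + Us s Q C)).det := by
  set K1 := (s : ℂ) • (1 : Matrix n n ℂ) + P with hK1
  set K2 := (s : ℂ) • (1 : Matrix m m ℂ) + Q with hK2
  have u1 : IsUnit K1 := (shift_posDef hP hs).isUnit
  have u2 : IsUnit K2 := (shift_posDef hQ hs).isUnit
  have h1 : (s : ℂ) • (1 : Matrix (n ⊕ m) (n ⊕ m) ℂ) + blk A C P Q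
      = fromBlocks K1 0 0 K2 + fromRows A C * (fromRows A C)ᴴ := by
    rw [blk_eq, ← add_assoc, ← fromBlocks_one, fromBlocks_smul, fromBlocks_add]
    simp [hK1, hK2]
  have hdet : (fromBlocks K1 0 0 K2).det = K1.det * K2.det := det_fromBlocks_zero₂₁ _ _ _
  have hu : IsUnit (fromBlocks K1 0 0 K2).det := by
    rw [hdet]
    exact ((isUnit_iff_isUnit_det _).mp u1).mul ((isUnit_iff_isUnit_det _).mp u2)
  rw [h1, det_add_mul _ _ hu, hdet, inv_fromBlocks_zero₂₁_of_isUnit_iff _ _ _ (by simp [u1, u2]),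
    conjTranspose_fromRows_eq_fromCols_conjTranspose, fromCols_mul_fromBlocks,
    fromCols_mul_fromRows]
  simp [Us, hK1, hK2]

lemma blk_log (A : Matrix n E ℂ) (C : Matrix m E ℂ) {P : Matrix n n ℂ} {Q : Matrix m m ℂ}
    (hP : P.PosSemidef) (hQ : Q.PosSemidef) {s : ℝ} (hs : 0 < s) :
    trf (fun x => Real.log (s + x)) (blk A C P Q)
      = trf (fun x => Real.log (s + x)) P + trf (fun x => Real.log (s + x)) Q
        + trf (fun x => Real.log (1 + x)) (Us s P A + Us s Q C) := by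
  have hN := blk_psd A C hP hQ
  have hW := (Us_psd hP hs A).add (Us_psd hQ hs C)
  have h := blk_det A C hP hQ hs
  rw [det_shift hN.1, det_shift hP.1, det_shift hQ.1, det_shift hW.1] at h
  rw [trf_log_shift hN hs, trf_log_shift hP hs, trf_log_shift hQ hs, trf_log_shift hW one_pos,
    ← Real.log_mul (prod_shift_pos hP hs).ne' (prod_shift_pos hQ hs).ne',
    ← Real.log_mul (mul_pos (prod_shift_pos hP hs) (prod_shift_pos hQ hs)).ne'
      (prod_shift_pos hW one_pos).ne']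
  congr 1
  exact_mod_cast h

lemma qf_add (H K : Matrix n n ℂ) (w : n → ℂ) : qf (H + K) w = qf H w + qf K w := by
  simp [qf, add_mulVec, dotProduct_add]

lemma qf_sub (H K : Matrix n n ℂ) (w : n → ℂ) : qf (H - K) w = qf H w - qf K w := by
  simp [qf, sub_mulVec, dotProduct_sub]

lemma qf_smul (H : Matrix n n ℂ) (c : ℝ) (w : n → ℂ) : qf ((c : ℂ) • H) w = c * qf H w := by
  simp [qf, smul_mulVec, dotProduct_smul]

lemma qf_nonneg {H : Matrix n n ℂ} (hH : H.PosSemidef) (w : n → ℂ) : 0 ≤ qf H w :=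
  hH.re_dotProduct_nonneg w

lemma qf_mul (B : Matrix n m ℂ) (H : Matrix n n ℂ) (w : m → ℂ) :
    qf H (B *ᵥ w) = qf (Bᴴ * H * B) w := by
  unfold qf
  rw [star_mulVec, ← dotProduct_mulVec, mulVec_mulVec, mulVec_mulVec]

/-- The matrix `X / x - P`. -/
noncomputable def Yx (x : ℝ) (P : Matrix n n ℂ) (A : Matrix n E ℂ) : Matrix n n ℂ :=
  ((x⁻¹ : ℝ) : ℂ) • (A * Aᴴ) - P

lemma Yx_herm (x : ℝ) {P : Matrix n n ℂ} (hP : P.PosSemidef) (A : Matrix n E ℂ) :
    (Yx x P A).IsHermitian := by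
  apply IsHermitian.sub _ hP.1
  have h := (posSemidef_self_mul_conjTranspose A).1
  unfold IsHermitian at h ⊢
  rw [conjTranspose_smul, h]
  simp

lemma count_Us {P : Matrix n n ℂ} (hP : P.PosSemidef) {s x : ℝ} (hs : 0 < s) (hx : 0 < x)
    (A : Matrix n E ℂ) :
    (Finset.univ.filter fun i => s < (Yx_herm x hP A).eigenvalues i).card
      ≤ (Finset.univ.filter fun j => x < (Us_psd hP hs A).1.eigenvalues j).card := by
  apply count_le _ _ Aᴴ
  intro w hw
  set K := (s : ℂ) • (1 : Matrix n n ℂ) + P with hK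
  have hKd : K.PosDef := shift_posDef hP hs
  have hKu : IsUnit K.det := (isUnit_iff_isUnit_det _).mp hKd.isUnit
  have hKh : Kᴴ = K := hKd.1
  set X := A * Aᴴ with hX
  have hXh : Xᴴ = X := (posSemidef_self_mul_conjTranspose A).1
  have h1 : x * qf K w < qf X w := by
    rw [Yx, qf_sub, qf_smul] at hw
    rw [hK, qf_add, qf_smul]
    have : s * qf 1 w + qf P w < x⁻¹ * qf X w := by linarith
    calc x * (s * qf 1 w + qf P w) < x * (x⁻¹ * qf X w) := mul_lt_mul_of_pos_left this hx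
      _ = qf X w := by field_simp
  have h2 : qf 1 (Aᴴ *ᵥ w) = qf X w := by
    rw [qf_mul]; simp [hX]
  have h3 : qf (Us s P A) (Aᴴ *ᵥ w) = qf (X * K⁻¹ * X) w := by
    rw [qf_mul]; simp [hX, Us, hK, Matrix.mul_assoc]
  have h4 : 0 ≤ qf K⁻¹ ((X - (x : ℂ) • K) *ᵥ w) := qf_nonneg hKd.inv.posSemidef _
  have h5 : (X - (x : ℂ) • K)ᴴ * K⁻¹ * (X - (x : ℂ) • K)
      = X * K⁻¹ * X - ((2 * x : ℝ) : ℂ) • X + ((x ^ 2 : ℝ) : ℂ) • K := by
    rw [conjTranspose_sub, conjTranspose_smul, hXh, hKh]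
    simp only [RCLike.star_def, Complex.conj_ofReal, sub_mul, mul_sub, smul_mul_assoc,
      mul_smul_comm]
    rw [mul_nonsing_inv _ hKu, Matrix.mul_assoc X K⁻¹ K, nonsing_inv_mul _ hKu]
    simp only [Matrix.one_mul, Matrix.mul_one]
    push_cast
    module
  rw [qf_mul, h5, qf_add, qf_sub, qf_smul, qf_smul] at h4
  rw [h2, h3]
  nlinarith [mul_lt_mul_of_pos_left h1 hx]

end Vale.Agent.P358
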