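import Vale.Agent.P358.Tensor

set_option linter.unusedSectionVars false

namespace Vale.Agent.P358

open Matrix Set
open Real (negMulLog binEntropy)
open scoped ComplexOrder

lemma vn_eq {ι : Type} [Fintype ι] [DecidableEq ι] {ρ : Matrix ι ι ℂ} (h : ρ.IsHermitian) :
    vnEntropy ρ = ent ρ / Real.log 2 := by
  rw [vnEntropy, dif_pos h, ent, trf_eq _ h, Finset.sum_div]
  refine Finset.sum_congr rfl fun i _ => ?_
  rw [Real.logb, negMulLog]; ring

lemma vn_submatrix {ι κ : Type} [Fintype ι] [DecidableEq ι] [Fintype κ] [DecidableEq κ]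
    (ρ : Matrix ι ι ℂ) (e : κ ≃ ι) : vnEntropy (ρ.submatrix e e) = vnEntropy ρ := by
  by_cases h : ρ.IsHermitian
  · rw [vn_eq h, vn_eq (h.submatrix e), ent, ent, trf_submatrix]
  · have h' : ¬ (ρ.submatrix e e).IsHermitian := by
      rwa [isHermitian_submatrix_equiv]
    rw [vnEntropy, vnEntropy, dif_neg h, dif_neg h']

lemma h2_eq (x : ℝ) : h2 x = binEntropy x / Real.log 2 := by
  rw [h2, Real.binEntropy_eq_negMulLog_add_negMulLog_one_sub, Real.logb, Real.logb, negMulLog,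
    negMulLog]
  ring

lemma capFun_eq (γ ν q : ℝ) :
    capFun γ ν q = (binEntropy ((1 - γ) * q + γ * ν) - ee γ ν q) / Real.log 2 := by
  rw [capFun, h2_eq, h2_eq, sub_div]; rfl

lemma log_two_pos : 0 < Real.log 2 := Real.log_pos one_lt_two

section
variable {γ ν : ℝ} (hγ : γ ∈ Icc (0 : ℝ) 1) (hν : ν ∈ Icc (0 : ℝ) 1)
include hγ hν

lemma upper_bound {F : ℝ} (hF : ∀ q ∈ Icc (0 : ℝ) 1, capFun γ ν q ≤ F) (n : ℕ) :
    ∀ x ∈ holevoSet (tensorPow (gad γ ν) n), x ≤ n * F := by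
  rintro x ⟨k, p, ρ, hp, hp1, hρ, rfl⟩
  have hT : ∀ a, (tensorPow (gad γ ν) n (ρ a)).PosSemidef := fun a => tensor_psd hγ hν (hρ a).1
  have htr : ∀ a, (ρ a).trace.re = 1 := fun a => by rw [(hρ a).2]; rfl
  set σ := ∑ a, (p a : ℂ) • tensorPow (gad γ ν) n (ρ a) with hσ
  have hσp : σ.PosSemidef := posSemidef_sum _ fun a _ => psd_smul (hT a) (hp a)
  have hσt : σ.trace.re = 1 := by
    rw [hσ, trace_sum, Complex.re_sum]
    simp only [tr_smul, tensor_tr, htr, mul_one, hp1]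
  have hd : dgl σ = fun I => ∑ a, p a * dgl (tensorPow (gad γ ν) n (ρ a)) I := by
    funext I
    simp [dgl, hσ, Matrix.sum_apply]
  set q : Fin k → Fin n → ℝ := fun a m => pop m (dgl (ρ a)) with hq
  have hq01 : ∀ a m, q a m ∈ Icc (0 : ℝ) 1 := fun a m =>
    ⟨pop_nonneg m (dgl_nonneg (hρ a).1), by
      have := pop_le m (dgl_nonneg (hρ a).1)
      rwa [← tr_dgl, htr] at this⟩
  set qb : Fin n → ℝ := fun m => ∑ a, p a * q a m with hqb
  have hqb01 : ∀ m, qb m ∈ Icc (0 : ℝ) 1 := fun m =>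
    (convex_Icc (0 : ℝ) 1).sum_mem (fun a _ => hp a) hp1 fun a _ => hq01 a m
  have h1 : ent σ ≤ ∑ m, binEntropy ((1 - γ) * qb m + γ * ν) := by
    refine (ent_le_pop hσp hσt).trans (le_of_eq (Finset.sum_congr rfl fun m _ => ?_))
    congr 1
    rw [hd, pop_sum]
    simp only [tensor_pop, htr, mul_one, mul_add, Finset.sum_add_distrib, ← Finset.sum_mul, hp1,
      one_mul, hqb, hq, Finset.mul_sum]
    congr 1
    exact Finset.sum_congr rfl fun a _ => by ring
  have h2 : ∀ a, ∑ m, ee γ ν (q a m) ≤ ent (tensorPow (gad γ ν) n (ρ a)) := by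
    intro a
    have := tensor_ent hγ hν n (ρ a) (hρ a).1
    simpa only [entn, tensor_tr, htr, one_mul, div_one, Real.negMulLog_one, sub_zero] using this
  have h3 : ∑ m, ee γ ν (qb m) ≤ ∑ a, p a * ent (tensorPow (gad γ ν) n (ρ a)) := by
    calc ∑ m, ee γ ν (qb m) ≤ ∑ m, ∑ a, p a * ee γ ν (q a m) := by
          refine Finset.sum_le_sum fun m _ => ?_
          exact (ee_convex hγ hν).map_sum_le (fun a _ => hp a) hp1 fun a _ => hq01 a m
      _ = ∑ a, p a * ∑ m, ee γ ν (q a m) := by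
          rw [Finset.sum_comm]; simp only [Finset.mul_sum]
      _ ≤ _ := Finset.sum_le_sum fun a _ => mul_le_mul_of_nonneg_left (h2 a) (hp a)
  have h4 : ∑ m : Fin n, capFun γ ν (qb m) ≤ n * F := by
    have := Finset.sum_le_sum (s := (Finset.univ : Finset (Fin n))) fun m _ => hF _ (hqb01 m)
    simpa using this
  refine le_trans ?_ h4
  simp only [vn_eq hσp.1, vn_eq (hT _).1, capFun_eq, ← mul_div_assoc, ← Finset.sum_div, ← sub_div,
    Finset.sum_sub_distrib]
  exact div_le_div_of_nonneg_right (by linarith) log_two_pos.le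

end

/-- Kronecker product of a family of 2 by 2 matrices. -/
def piKron {n : ℕ} (M : Fin n → Matrix (Fin 2) (Fin 2) ℂ) : Matrix (Qb n) (Qb n) ℂ :=
  of fun I J => ∏ m, M m (I m) (J m)

lemma piKron_mul {n : ℕ} (M N : Fin n → Matrix (Fin 2) (Fin 2) ℂ) :
    piKron M * piKron N = piKron fun m => M m * N m := by
  ext I J
  simp only [piKron, Matrix.mul_apply, of_apply, Finset.prod_univ_sum, Fintype.piFinset_univ,
    Finset.prod_mul_distrib]

lemma piKron_star {n : ℕ} (M : Fin n → Matrix (Fin 2) (Fin 2) ℂ) :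
    star (piKron M) = piKron fun m => star (M m) := by
  ext I J
  simp [piKron, star_apply]

lemma piKron_diag {n : ℕ} (d : Fin n → Fin 2 → ℂ) :
    piKron (fun m => diagonal (d m)) = diagonal fun I => ∏ m, d m (I m) := by
  ext I J
  by_cases h : I = J
  · subst h; simp [piKron]
  · obtain ⟨m, hm⟩ := Function.ne_iff.mp h
    rw [diagonal_apply_ne _ h]
    exact Finset.prod_eq_zero (Finset.mem_univ m) (diagonal_apply_ne _ hm)

lemma piKron_one (n : ℕ) : piKron (fun _ : Fin n => 1) = 1 := by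
  have := piKron_diag (n := n) fun _ _ => 1
  simpa using this

lemma sum_prod_one {n : ℕ} (w : Fin n → Fin 2 → ℝ) (hw : ∀ m, ∑ i, w m i = 1) :
    ∑ I : Qb n, ∏ m, w m (I m) = 1 := by
  have := Finset.prod_univ_sum (fun _ : Fin n => (Finset.univ : Finset (Fin 2))) w
  rw [Fintype.piFinset_univ] at this
  rw [← this]; simp [hw]

lemma sum_negMulLog_prod (n : ℕ) : ∀ (w : Fin n → Fin 2 → ℝ), (∀ m, ∑ i, w m i = 1) →
    ∑ I : Qb n, negMulLog (∏ m, w m (I m)) = ∑ m, ∑ i, negMulLog (w m i) := by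
  induction n with
  | zero => intro w _; simp
  | succ n ih =>
    intro w hw
    have h1 := ih (fun m => w m.succ) fun m => hw _
    have h2 := sum_prod_one (fun m => w m.succ) fun m => hw _
    have h3 := hw 0
    rw [Fin.sum_univ_two] at h3
    rw [sum_Qb, Fin.sum_univ_succ (n := n), Fin.sum_univ_two]
    simp only [Fin.prod_univ_succ, Fin.cons_zero, Fin.cons_succ, Real.negMulLog_mul,
      Finset.sum_add_distrib, ← Finset.sum_mul, ← Finset.mul_sum, h1, h2]
    linear_combination (∑ m : Fin n, ∑ i, negMulLog (w m.succ i)) * h3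

lemma ent_piKron {n : ℕ} (M : Fin n → Matrix (Fin 2) (Fin 2) ℂ) (hM : ∀ m, (M m).IsHermitian)
    (ht : ∀ m, (M m).trace.re = 1) : ent (piKron M) = ∑ m, ent (M m) := by
  have e : piKron M = piKron (fun m => evU (hM m))
      * diagonal (fun I : Qb n => ((∏ m, (hM m).eigenvalues (I m) : ℝ) : ℂ))
      * star (piKron fun m => evU (hM m)) := by
    have : (fun I : Qb n => ((∏ m, (hM m).eigenvalues (I m) : ℝ) : ℂ))
        = fun I : Qb n => ∏ m, ((hM m).eigenvalues (I m) : ℂ) := by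
      funext I; simp
    rw [this, ← piKron_diag (fun m i => ((hM m).eigenvalues i : ℂ)), piKron_star, piKron_mul,
      piKron_mul]
    congr 1
    funext m
    exact spec (hM m)
  rw [ent, e, trf_conj_diag, sum_negMulLog_prod n (fun m i => (hM m).eigenvalues i)
    fun m => by rw [sum_eig, ht]]
  · exact Finset.sum_congr rfl fun m _ => (trf_eq _ (hM m)).symm
  · rw [piKron_star, piKron_mul]
    simp only [evU_star_mul, piKron_one]

lemma gad_lin (γ ν : ℝ) (ρ : Matrix (Fin 2) (Fin 2) ℂ) (i j : Fin 2) :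
    gad γ ν ρ i j = ∑ k, ∑ l, ρ k l * gad γ ν (single k l 1) i j := by
  fin_cases i <;> fin_cases j <;> simp [gad, trace_fin_two, Fin.sum_univ_two] <;> ring

lemma tensor_piKron (γ ν : ℝ) {n : ℕ} (M : Fin n → Matrix (Fin 2) (Fin 2) ℂ) :
    tensorPow (gad γ ν) n (piKron M) = piKron fun m => gad γ ν (M m) := by
  ext I J
  simp only [tensorPow, piKron, of_apply]
  simp_rw [gad_lin γ ν (M _), Finset.prod_univ_sum, Fintype.piFinset_univ,
    Finset.prod_mul_distrib]

lemma mem_holevoSet {ι κ α : Type} [Fintype ι] [Fintype κ] [DecidableEq κ] [Fintype α]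
    (N : Matrix ι ι ℂ → Matrix κ κ ℂ) (p : α → ℝ) (ρ : α → Matrix ι ι ℂ) (hp : ∀ a, 0 ≤ p a)
    (hp1 : ∑ a, p a = 1) (hρ : ∀ a, IsState (ρ a)) :
    vnEntropy (∑ a, (p a : ℂ) • N (ρ a)) - ∑ a, p a * vnEntropy (N (ρ a)) ∈ holevoSet N := by
  let e := (Fintype.equivFin α).symm
  refine ⟨Fintype.card α, fun a => p (e a), fun a => ρ (e a), fun a => hp _, ?_, fun a => hρ _, ?_⟩
  · rw [e.sum_comp p, hp1]
  · rw [e.sum_comp (fun a => (p a : ℂ) • N (ρ a)), e.sum_comp fun a => p a * vnEntropy (N (ρ a))]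

/-- The two signal vectors. -/
noncomputable def sig (q : ℝ) (e : Fin 2) : Fin 2 → ℂ :=
  ![(√(1 - q) : ℝ), if e = 0 then (√q : ℝ) else -(√q : ℝ)]

/-- The two signal states. -/
noncomputable def psi (q : ℝ) (e : Fin 2) : Matrix (Fin 2) (Fin 2) ℂ :=
  vecMulVec (sig q e) (star (sig q e))

lemma psi_eq {q : ℝ} (hq : q ∈ Icc (0 : ℝ) 1) (e : Fin 2) :
    psi q e = !![((1 - q : ℝ) : ℂ), ((if e = 0 then 1 else -1) * (√(1 - q) * √q) : ℝ);
      ((if e = 0 then 1 else -1) * (√(1 - q) * √q) : ℝ), (q : ℂ)] := by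
  have e1 : ((√(1 - q) : ℝ) : ℂ) * (√(1 - q) : ℝ) = 1 - q := by
    rw [← Complex.ofReal_mul, Real.mul_self_sqrt (by linarith [hq.2])]; simp
  have e2 : ((√q : ℝ) : ℂ) * (√q : ℝ) = q := by
    rw [← Complex.ofReal_mul, Real.mul_self_sqrt hq.1]
  ext i j
  fin_cases e <;> fin_cases i <;> fin_cases j <;> simp [psi, sig, vecMulVec, e1, e2, mul_comm]

lemma gad_psi {γ ν q : ℝ} (hq : q ∈ Icc (0 : ℝ) 1) (e : Fin 2) :
    gad γ ν (psi q e) = !![((1 - ((1 - γ) * q + γ * ν) : ℝ) : ℂ),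
      ((if e = 0 then 1 else -1) * (√(1 - γ) * (√(1 - q) * √q)) : ℝ);
      ((if e = 0 then 1 else -1) * (√(1 - γ) * (√(1 - q) * √q)) : ℝ),
      (((1 - γ) * q + γ * ν : ℝ) : ℂ)] := by
  rw [psi_eq hq]
  ext i j
  fin_cases e <;> fin_cases i <;> fin_cases j <;> simp [gad, trace_fin_two]

lemma ent_two (a b : ℝ) : ent !![((1 - a : ℝ) : ℂ), (b : ℂ); (b : ℂ), (a : ℂ)]
    = binEntropy ((1 + √(1 - 4 * ((1 - a) * a - b ^ 2))) / 2) := by
  have h : (!![((1 - a : ℝ) : ℂ), (b : ℂ); (b : ℂ), (a : ℂ)]).IsHermitian := by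
    ext i j; fin_cases i <;> fin_cases j <;> simp
  rw [ent, trf_eq _ h, Fin.sum_univ_two]
  apply eig_two
  · have := sum_eig h
    rw [Fin.sum_univ_two] at this
    rw [this]; simp [trace_fin_two]
  · have := h.det_eq_prod_eigenvalues
    rw [Fin.prod_univ_two, det_fin_two] at this
    simp only [of_apply, cons_val', cons_val_zero, cons_val_one, cons_val_fin_one] at this
    have h2 : ((h.eigenvalues 0 * h.eigenvalues 1 : ℝ) : ℂ) = (((1 - a) * a - b ^ 2 : ℝ) : ℂ) := by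
      push_cast at this ⊢
      rw [sq]; exact this.symm
    exact_mod_cast h2

lemma herm_two (a b : ℝ) : (!![((1 - a : ℝ) : ℂ), (b : ℂ); (b : ℂ), (a : ℂ)]).IsHermitian := by
  ext i j; fin_cases i <;> fin_cases j <;> simp

lemma lower_bound {γ ν : ℝ} (hγ : γ ∈ Icc (0 : ℝ) 1) (hν : ν ∈ Icc (0 : ℝ) 1) {q : ℝ}
    (hq : q ∈ Icc (0 : ℝ) 1) (n : ℕ) :
    n * capFun γ ν q ∈ holevoSet (tensorPow (gad γ ν) n) := by
  have hst : ∀ E : Qb n, IsState (piKron fun m => psi q (E m)) := by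
    intro E
    constructor
    · have : (piKron fun m => psi q (E m)) = vecMulVec (fun I : Qb n => ∏ m, sig q (E m) (I m))
          (star fun I : Qb n => ∏ m, sig q (E m) (I m)) := by
        ext I J
        simp [piKron, psi, vecMulVec, Finset.prod_mul_distrib]
      rw [this]
      exact posSemidef_vecMulVec_self_star _
    · have h := Finset.prod_univ_sum (fun _ : Fin n => (Finset.univ : Finset (Fin 2)))
        (fun m i => psi q (E m) i i)
      rw [Fintype.piFinset_univ] at h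
      simp only [Matrix.trace, diag_apply, piKron, of_apply]
      rw [← h]
      refine Finset.prod_eq_one fun m _ => ?_
      rw [psi_eq hq]; simp [Fin.sum_univ_two]
  have h := mem_holevoSet (tensorPow (gad γ ν) n) (fun _ : Qb n => ∏ _m : Fin n, (1 / 2 : ℝ))
    (fun E => piKron fun m => psi q (E m)) (fun _ => by positivity)
    (sum_prod_one (fun _ _ => 1 / 2) fun _ => by simp) hst
  convert h using 1
  set t := (1 - γ) * q + γ * ν with ht
  have e1 : ∑ E : Qb n, ((∏ _m : Fin n, (1 / 2 : ℝ) : ℝ) : ℂ)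
      • tensorPow (gad γ ν) n (piKron fun m => psi q (E m))
      = piKron fun _ : Fin n => !![((1 - t : ℝ) : ℂ), ((0 : ℝ) : ℂ); ((0 : ℝ) : ℂ), (t : ℂ)] := by
    ext I J
    have h := Finset.prod_univ_sum (fun _ : Fin n => (Finset.univ : Finset (Fin 2)))
      (fun m e => (((1 / 2 : ℝ) : ℂ)) * gad γ ν (psi q e) (I m) (J m))
    rw [Fintype.piFinset_univ] at h
    simp only [Matrix.sum_apply, Matrix.smul_apply, tensor_piKron, smul_eq_mul]
    simp only [piKron, of_apply, Complex.ofReal_prod, ← Finset.prod_mul_distrib]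
    rw [← h]
    refine Finset.prod_congr rfl fun m _ => ?_
    rw [Fin.sum_univ_two, gad_psi hq, gad_psi hq, ← ht]
    generalize I m = i
    generalize J m = j
    fin_cases i <;> fin_cases j <;> simp <;> ring
  have hk : ∀ M : Fin n → Matrix (Fin 2) (Fin 2) ℂ, (∀ m, (M m).IsHermitian) →
      (piKron M).IsHermitian := by
    intro M hM
    change star (piKron M) = piKron M
    rw [piKron_star]
    congr 1
    funext m
    exact hM m
  have e2 : ∀ E : Qb n, vnEntropy (tensorPow (gad γ ν) n (piKron fun m => psi q (E m)))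
      = n * ee γ ν q / Real.log 2 := by
    intro E
    have hh : ∀ m, (gad γ ν (psi q (E m))).IsHermitian := fun m => by
      rw [gad_psi hq]; exact herm_two _ _
    rw [tensor_piKron, vn_eq (hk _ hh), ent_piKron _ hh fun m => by
      rw [gad_psi hq]; simp [trace_fin_two]]
    congr 1
    have : ∀ m, ent (gad γ ν (psi q (E m))) = ee γ ν q := by
      intro m
      rw [gad_psi hq, ent_two, ee]
      congr 4
      have s1 : ((if E m = 0 then 1 else -1 : ℝ)) ^ 2 = 1 := by split_ifs <;> norm_num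
      rw [mul_pow, mul_pow, mul_pow, s1, Real.sq_sqrt (by linarith [hγ.2]),
        Real.sq_sqrt (by linarith [hq.2]), Real.sq_sqrt hq.1, dd]
      ring
    simp [this]
  have e3 : vnEntropy (piKron fun _ : Fin n =>
      !![((1 - t : ℝ) : ℂ), ((0 : ℝ) : ℂ); ((0 : ℝ) : ℂ), (t : ℂ)])
      = n * binEntropy t / Real.log 2 := by
    rw [vn_eq (hk _ fun _ => herm_two _ _), ent_piKron _ (fun _ => herm_two _ _) fun m => by
      simp [trace_fin_two]]
    congr 1
    rw [ent_two, ← eig_two (l0 := t) (l1 := 1 - t) (by ring) (by ring),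
      ← Real.binEntropy_eq_negMulLog_add_negMulLog_one_sub]
    simp
  rw [e1, e3]
  simp only [e2, ← Finset.sum_mul, sum_prod_one (fun (_ : Fin n) _ => 1 / 2) fun _ => by simp]
  rw [capFun_eq]
  ring

lemma holevoSet_one (γ ν : ℝ) : holevoSet (tensorPow (gad γ ν) 1) = holevoSet (gad γ ν) := by
  let e : Qb 1 ≃ Fin 2 := Equiv.funUnique (Fin 1) (Fin 2)
  have hT : ∀ ρ : Matrix (Fin 2) (Fin 2) ℂ,
      tensorPow (gad γ ν) 1 (ρ.submatrix e e) = (gad γ ν ρ).submatrix e e := by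
    intro ρ
    have h1 : ∀ M : Matrix (Fin 2) (Fin 2) ℂ, M.submatrix e e = piKron fun _ => M := by
      intro M; ext I J; simp [piKron, e]
    rw [h1, h1, tensor_piKron]
  have hsum : ∀ {k : ℕ} (p : Fin k → ℝ) (M : Fin k → Matrix (Fin 2) (Fin 2) ℂ),
      ∑ a, (p a : ℂ) • (M a).submatrix e e = (∑ a, (p a : ℂ) • M a).submatrix e e := by
    intro k p M; ext I J; simp [Matrix.sum_apply]
  have htr : ∀ ρ : Matrix (Fin 2) (Fin 2) ℂ, (ρ.submatrix e e).trace = ρ.trace := by
    intro ρ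
    exact e.sum_comp fun i => ρ i i
  ext x
  constructor
  · rintro ⟨k, p, ρ, hp, hp1, hρ, rfl⟩
    have hb : ∀ a, ρ a = ((ρ a).submatrix e.symm e.symm).submatrix e e := fun a => by simp
    refine ⟨k, p, fun a => (ρ a).submatrix e.symm e.symm, hp, hp1,
      fun a => ⟨(hρ a).1.submatrix _, ?_⟩, ?_⟩
    · rw [← htr, ← hb]; exact (hρ a).2
    · have : ∀ a, tensorPow (gad γ ν) 1 (ρ a)
          = (gad γ ν ((ρ a).submatrix e.symm e.symm)).submatrix e e := fun a => by
        rw [← hT, ← hb]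
      simp only [this, hsum, vn_submatrix]
  · rintro ⟨k, p, ρ, hp, hp1, hρ, rfl⟩
    refine ⟨k, p, fun a => (ρ a).submatrix e e, hp, hp1,
      fun a => ⟨(hρ a).1.submatrix _, ?_⟩, ?_⟩
    · rw [htr]; exact (hρ a).2
    · simp only [hT, hsum, vn_submatrix]

lemma capFun_cont (γ ν : ℝ) : Continuous (capFun γ ν) := by
  have : capFun γ ν = fun q => (binEntropy ((1 - γ) * q + γ * ν) - ee γ ν q) / Real.log 2 :=
    funext (capFun_eq γ ν)
  rw [this]
  unfold ee dd
  fun_prop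

theorem final {γ ν : ℝ} (hγ : γ ∈ Icc (0 : ℝ) 1) (hν : ν ∈ Icc (0 : ℝ) 1) :
    IsGreatest (capFun γ ν '' Icc 0 1) (holevoCap (gad γ ν)) ∧
    IsGreatest (holevoSet (gad γ ν)) (holevoCap (gad γ ν)) ∧
    (∀ n : ℕ, IsGreatest (holevoSet (tensorPow (gad γ ν) n)) (n * holevoCap (gad γ ν))) ∧
    (∀ n : ℕ, holevoCap (tensorPow (gad γ ν) n) = n * holevoCap (gad γ ν)) ∧
    classicalCap (gad γ ν) = holevoCap (gad γ ν) := by
  obtain ⟨q, hq, hmax⟩ := isCompact_Icc.exists_isMaxOn (nonempty_Icc.mpr zero_le_one)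
    (capFun_cont γ ν).continuousOn
  have hG : ∀ n : ℕ, IsGreatest (holevoSet (tensorPow (gad γ ν) n)) (n * capFun γ ν q) :=
    fun n => ⟨lower_bound hγ hν hq n, upper_bound hγ hν (fun x hx => hmax hx) n⟩
  have h1 : IsGreatest (holevoSet (gad γ ν)) (capFun γ ν q) := by
    have := hG 1
    rwa [holevoSet_one, Nat.cast_one, one_mul] at this
  have hc : holevoCap (gad γ ν) = capFun γ ν q := h1.csSup_eq
  rw [hc]
  refine ⟨⟨⟨q, hq, rfl⟩, ?_⟩, h1, hG, fun n => (hG n).csSup_eq, ?_⟩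
  · rintro _ ⟨x, hx, rfl⟩; exact hmax hx
  · have : ∀ n : ℕ, holevoCap (tensorPow (gad γ ν) (n + 1)) / ((n : ℝ) + 1) = capFun γ ν q := by
      intro n
      have h := (hG (n + 1)).csSup_eq
      rw [holevoCap, h]
      push_cast
      field_simp
    simp only [classicalCap, this, ciSup_const]

end Vale.Agent.P358
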