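import Mathlib

namespace Vale.Agent.P358

open Set
open Real (negMulLog binEntropy)

/-- Entropy of a qubit state as a function of twice the square root of its determinant. -/
noncomputable def Gc (x : ℝ) : ℝ := binEntropy ((1 + √(1 - x ^ 2)) / 2)

lemma two_mul_le_log {r : ℝ} (h0 : 0 ≤ r) (h1 : r < 1) :
    2 * r ≤ Real.log (1 + r) - Real.log (1 - r) := by
  have h2 : 0 < 1 - r := by linarith
  have h := Real.le_log_one_add_of_nonneg (x := 2 * r / (1 - r)) (by positivity)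
  have e1 : 2 * (2 * r / (1 - r)) / (2 * r / (1 - r) + 2) = 2 * r := by
    have : 2 * r / (1 - r) + 2 = 2 / (1 - r) := by field_simp; ring
    rw [this]; field_simp
  have e2 : 1 + 2 * r / (1 - r) = (1 + r) / (1 - r) := by field_simp; ring
  rwa [e1, e2, Real.log_div (by linarith) h2.ne'] at h

lemma Gc_convex : ConvexOn ℝ (Icc 0 1) Gc := by
  have hr : ∀ x ∈ Ioo (0 : ℝ) 1, 0 < √(1 - x ^ 2) ∧ √(1 - x ^ 2) < 1 ∧
      √(1 - x ^ 2) ^ 2 = 1 - x ^ 2 ∧
      HasDerivAt (fun x : ℝ => √(1 - x ^ 2)) (-x / √(1 - x ^ 2)) x := by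
    intro x hx
    have h1 : 0 < 1 - x ^ 2 := by nlinarith [hx.1, hx.2]
    refine ⟨Real.sqrt_pos.mpr h1, ?_, Real.sq_sqrt h1.le, ?_⟩
    · rw [Real.sqrt_lt' one_pos]; nlinarith [hx.1]
    · have h2 : HasDerivAt (fun x : ℝ => 1 - x ^ 2) (-(2 * x)) x := by
        simpa using (hasDerivAt_pow 2 x).const_sub 1
      refine HasDerivAt.congr_deriv (h2.sqrt h1.ne') ?_
      field_simp
  refine convexOn_of_hasDerivWithinAt2_nonneg (convex_Icc 0 1)
    (f' := fun x => x * (Real.log (1 + √(1 - x ^ 2)) - Real.log (1 - √(1 - x ^ 2)))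
      / (2 * √(1 - x ^ 2)))
    (f'' := fun x => (Real.log (1 + √(1 - x ^ 2)) - Real.log (1 - √(1 - x ^ 2))
      - 2 * √(1 - x ^ 2)) / (2 * √(1 - x ^ 2) ^ 3)) ?_ ?_ ?_ ?_
  · unfold Gc; fun_prop
  · intro x hx
    rw [interior_Icc] at hx
    obtain ⟨r0, r1, r2, hd⟩ := hr x hx
    apply HasDerivAt.hasDerivWithinAt
    have h1 : HasDerivAt (fun x : ℝ => (1 + √(1 - x ^ 2)) / 2) (-x / √(1 - x ^ 2) / 2) x :=
      (hd.const_add 1).div_const 2
    have h2 := (Real.hasDerivAt_binEntropy (p := (1 + √(1 - x ^ 2)) / 2) (by linarith)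
      (by linarith)).comp x h1
    refine HasDerivAt.congr_deriv h2 ?_
    have e1 : 1 - (1 + √(1 - x ^ 2)) / 2 = (1 - √(1 - x ^ 2)) / 2 := by ring
    rw [e1, Real.log_div (by linarith) two_ne_zero, Real.log_div (by linarith) two_ne_zero]
    field_simp
    ring
  · intro x hx
    rw [interior_Icc] at hx
    obtain ⟨r0, r1, r2, hd⟩ := hr x hx
    apply HasDerivAt.hasDerivWithinAt
    have h1 := (hd.const_add 1).log (by linarith)
    have h2 := (hd.const_sub 1).log (by linarith)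
    have h3 := ((hasDerivAt_id x).mul (h1.sub h2)).div (hd.const_mul 2) (by linarith)
    refine HasDerivAt.congr_deriv h3 ?_
    simp only [id, Pi.mul_apply, Pi.sub_apply]
    generalize Real.log (1 + √(1 - x ^ 2)) = L1
    generalize Real.log (1 - √(1 - x ^ 2)) = L2
    generalize √(1 - x ^ 2) = r at r0 r1 r2
    have a1 : 1 + r ≠ 0 := by linarith
    have a2 : 1 - r ≠ 0 := by linarith
    have a3 : x ^ 2 = 1 - r ^ 2 := by linarith
    field_simp
    linear_combination ((L1 - L2) * (1 - r ^ 2) - 2 * r) * a3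
  · intro x hx
    rw [interior_Icc] at hx
    obtain ⟨r0, r1, -, -⟩ := hr x hx
    exact div_nonneg (by linarith [two_mul_le_log r0.le r1]) (by positivity)

lemma Gc_mono : MonotoneOn Gc (Icc 0 1) := by
  intro x hx y hy hxy
  have hb : ∀ z : ℝ, (1 + √(1 - z ^ 2)) / 2 ∈ Icc (2⁻¹ : ℝ) 1 := by
    intro z
    have h1 : √(1 - z ^ 2) ≤ 1 := Real.sqrt_le_one.mpr (by nlinarith)
    have h2 := Real.sqrt_nonneg (1 - z ^ 2)
    constructor <;> linarith
  apply Real.binEntropy_strictAntiOn.antitoneOn (hb y) (hb x)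
  have : √(1 - y ^ 2) ≤ √(1 - x ^ 2) := Real.sqrt_le_sqrt (by nlinarith [hx.1])
  linarith

lemma sqrt_quad_convex {α β : ℝ} (hα : 0 ≤ α) (hβ : 0 ≤ β) (ν : ℝ) :
    ConvexOn ℝ univ (fun q : ℝ => √(α + β * (q - ν) ^ 2)) := by
  refine ⟨convex_univ, fun x _ y _ s t hs ht hst => ?_⟩
  simp only [smul_eq_mul]
  have e : s * x + t * y - ν = s * (x - ν) + t * (y - ν) := by
    linear_combination ν * hst
  rw [e]
  generalize x - ν = u
  generalize y - ν = v
  have hu : 0 ≤ α + β * u ^ 2 := by positivity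
  have hv : 0 ≤ α + β * v ^ 2 := by positivity
  have h1 : α + β * (u * v) ≤ √(α + β * u ^ 2) * √(α + β * v ^ 2) := by
    rw [← Real.sqrt_mul hu]
    apply Real.le_sqrt_of_sq_le
    nlinarith [mul_nonneg (mul_nonneg hα hβ) (sq_nonneg (u - v))]
  have h2 := Real.sq_sqrt hu
  have h3 := Real.sq_sqrt hv
  apply Real.sqrt_le_iff.mpr
  refine ⟨by positivity, ?_⟩
  have h4 : α = α * (s + t) ^ 2 := by rw [hst]; ring
  have h5 := mul_le_mul_of_nonneg_left h1 (mul_nonneg hs ht)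
  generalize √(α + β * u ^ 2) = A at *
  generalize √(α + β * v ^ 2) = B at *
  have h6 : (s * A + t * B) ^ 2 = s ^ 2 * (α + β * u ^ 2) + t ^ 2 * (α + β * v ^ 2)
      + 2 * (s * t * (A * B)) := by rw [← h2, ← h3]; ring
  have h7 : α + β * (s * u + t * v) ^ 2 = s ^ 2 * (α + β * u ^ 2) + t ^ 2 * (α + β * v ^ 2)
      + 2 * (s * t * (α + β * (u * v))) := by linear_combination h4
  linarith

/-- Determinant of the output for a pure input with excited population `q`. -/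
def dd (γ ν q : ℝ) : ℝ := γ * ν * (1 - ν) + γ * (1 - γ) * (q - ν) ^ 2

/-- Output entropy (nats) for a pure input with excited population `q`. -/
noncomputable def ee (γ ν q : ℝ) : ℝ := binEntropy ((1 + √(1 - 4 * dd γ ν q)) / 2)

section
variable {γ ν : ℝ} (hγ : γ ∈ Icc (0 : ℝ) 1) (hν : ν ∈ Icc (0 : ℝ) 1)
include hγ hν

lemma dd_nonneg (q : ℝ) : 0 ≤ dd γ ν q := by
  unfold dd
  have h1 := hγ.1
  have h2 := hν.1
  have h3 : 0 ≤ 1 - γ := by linarith [hγ.2]
  have h4 : 0 ≤ 1 - ν := by linarith [hν.2]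
  positivity

omit hν in
lemma dd_le {q : ℝ} (hq : q ∈ Icc (0 : ℝ) 1) : 0 ≤ 1 - 4 * dd γ ν q := by
  have e : 1 - 4 * dd γ ν q
      = (1 - 2 * ((1 - γ) * q + γ * ν)) ^ 2 + 4 * ((1 - γ) * (q * (1 - q))) := by
    unfold dd; ring
  have h1 := hq.1
  have h3 : 0 ≤ 1 - γ := by linarith [hγ.2]
  have h4 : 0 ≤ 1 - q := by linarith [hq.2]
  rw [e]; positivity

lemma ee_convex : ConvexOn ℝ (Icc 0 1) (ee γ ν) := by
  have h3 : 0 ≤ 1 - γ := by linarith [hγ.2]
  have h4 : 0 ≤ 1 - ν := by linarith [hν.2]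
  have hC := sqrt_quad_convex (α := γ * ν * (1 - ν)) (β := γ * (1 - γ))
    (mul_nonneg (mul_nonneg hγ.1 hν.1) h4) (mul_nonneg hγ.1 h3) ν
  have e : ∀ q, ee γ ν q = Gc (2 * √(dd γ ν q)) := by
    intro q
    unfold ee Gc
    rw [mul_pow, Real.sq_sqrt (dd_nonneg hγ hν q)]; norm_num
  have hm : ∀ q ∈ Icc (0 : ℝ) 1, 2 * √(dd γ ν q) ∈ Icc (0 : ℝ) 1 := by
    intro q hq
    refine ⟨by positivity, ?_⟩
    have : √(dd γ ν q) ≤ 1 / 2 := by
      apply Real.sqrt_le_iff.mpr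
      exact ⟨by norm_num, by linarith [dd_le (ν := ν) hγ hq]⟩
    linarith
  refine ⟨convex_Icc 0 1, fun x hx y hy s t hs ht hst => ?_⟩
  rw [e, e, e]
  have h1 := Gc_convex.2 (hm x hx) (hm y hy) hs ht hst
  refine le_trans (Gc_mono (hm _ (convex_Icc 0 1 hx hy hs ht hst))
    (convex_Icc 0 1 (hm x hx) (hm y hy) hs ht hst) ?_) h1
  have h2 := hC.2 (mem_univ x) (mem_univ y) hs ht hst
  simp only [smul_eq_mul] at h2 ⊢
  unfold dd
  linarith

end

lemma persp_concave {f : ℝ → ℝ} (hf : ConcaveOn ℝ (Icc 0 1) f) {t0 t1 z0 z1 : ℝ} (h0 : 0 ≤ z0)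
    (h0' : z0 ≤ t0) (h1 : 0 ≤ z1) (h1' : z1 ≤ t1) :
    t0 * f (z0 / t0) + t1 * f (z1 / t1) ≤ (t0 + t1) * f ((z0 + z1) / (t0 + t1)) := by
  rcases (h0.trans h0').eq_or_lt with a | a
  · have : z0 = 0 := le_antisymm (a ▸ h0') h0
    simp [← a, this]
  rcases (h1.trans h1').eq_or_lt with b | b
  · have : z1 = 0 := le_antisymm (b ▸ h1') h1
    simp [← b, this]
  have hs : 0 < t0 + t1 := by linarith
  have m0 : z0 / t0 ∈ Icc (0 : ℝ) 1 := ⟨by positivity, (div_le_one a).mpr h0'⟩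
  have m1 : z1 / t1 ∈ Icc (0 : ℝ) 1 := ⟨by positivity, (div_le_one b).mpr h1'⟩
  have h := hf.2 m0 m1 (show 0 ≤ t0 / (t0 + t1) by positivity)
    (show 0 ≤ t1 / (t0 + t1) by positivity) (by field_simp)
  simp only [smul_eq_mul] at h
  have e : t0 / (t0 + t1) * (z0 / t0) + t1 / (t0 + t1) * (z1 / t1) = (z0 + z1) / (t0 + t1) := by
    field_simp
  rw [e] at h
  have := mul_le_mul_of_nonneg_left h hs.le
  refine le_trans (le_of_eq ?_) this
  field_simp

lemma persp_convex {f : ℝ → ℝ} (hf : ConvexOn ℝ (Icc 0 1) f) {t0 t1 z0 z1 : ℝ} (h0 : 0 ≤ z0)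
    (h0' : z0 ≤ t0) (h1 : 0 ≤ z1) (h1' : z1 ≤ t1) :
    (t0 + t1) * f ((z0 + z1) / (t0 + t1)) ≤ t0 * f (z0 / t0) + t1 * f (z1 / t1) := by
  have := persp_concave hf.neg h0 h0' h1 h1'
  simp only [Pi.neg_apply] at this
  linarith

lemma persp_bin (t p : ℝ) :
    negMulLog (t * p) + negMulLog (t * (1 - p)) - negMulLog t = t * binEntropy p := by
  rw [Real.binEntropy_eq_negMulLog_add_negMulLog_one_sub, Real.negMulLog_mul, Real.negMulLog_mul]
  ring

lemma eig_two {l0 l1 d : ℝ} (hs : l0 + l1 = 1) (hp : l0 * l1 = d) :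
    negMulLog l0 + negMulLog l1 = binEntropy ((1 + √(1 - 4 * d)) / 2) := by
  have e : 1 - 4 * d = (l0 - l1) ^ 2 := by
    rw [← hp]; linear_combination (-(l0 + l1 + 1)) * hs
  rw [e, Real.sqrt_sq_eq_abs, Real.binEntropy_eq_negMulLog_add_negMulLog_one_sub]
  rcases le_total l1 l0 with h | h
  · rw [abs_of_nonneg (by linarith), show (1 + (l0 - l1)) / 2 = l0 by linarith,
      show 1 - l0 = l1 by linarith]
  · rw [abs_of_nonpos (by linarith), show (1 + -(l0 - l1)) / 2 = l1 by linarith,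
      show 1 - l1 = l0 by linarith, add_comm]

end Vale.Agent.P358
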