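import Vale.Agent.P358.Main
import Vale.Agent.P358.Qubit

set_option linter.unusedSectionVars false

namespace Vale.Agent.P358

open Matrix Set
open Real (negMulLog binEntropy)
open scoped ComplexOrder

variable {n m E : Type} [Fintype n] [DecidableEq n] [Fintype m] [DecidableEq m]
  [Fintype E] [DecidableEq E]

/-- Homogeneous form of the entropy: the trace times the entropy of the normalized matrix. -/
noncomputable def entn (A : Matrix n n ℂ) : ℝ := ent A - negMulLog A.trace.re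

lemma tr_nonneg {A : Matrix n n ℂ} (hA : A.PosSemidef) : 0 ≤ A.trace.re :=
  (Complex.nonneg_iff.mp hA.trace_nonneg).1

lemma psd_smul {A : Matrix n n ℂ} (hA : A.PosSemidef) {k : ℝ} (hk : 0 ≤ k) :
    ((k : ℂ) • A).PosSemidef := hA.smul (by exact_mod_cast hk)

lemma tr_smul (A : Matrix n n ℂ) (k : ℝ) : ((k : ℂ) • A).trace.re = k * A.trace.re := by
  simp

lemma entn_smul {A : Matrix n n ℂ} (hA : A.IsHermitian) (k : ℝ) :
    entn ((k : ℂ) • A) = k * entn A := by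
  have h : (k : ℂ) • A = evU hA * diagonal (fun i => ((k * hA.eigenvalues i : ℝ) : ℂ))
      * star (evU hA) := by
    have h2 : diagonal (fun i => ((k * hA.eigenvalues i : ℝ) : ℂ))
        = (k : ℂ) • diagonal (fun i => (hA.eigenvalues i : ℂ)) := by
      ext i j
      by_cases hij : i = j
      · subst hij; simp
      · simp [hij]
    rw [h2, mul_smul_comm, smul_mul_assoc, ← spec hA]
  have h1 : ent ((k : ℂ) • A) = ∑ i, negMulLog (k * hA.eigenvalues i) := by
    rw [ent, h, trf_conj_diag _ _ (evU_star_mul hA)]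
  rw [entn, entn, h1, tr_smul, ent, trf_eq _ hA, ← sum_eig hA]
  simp only [Real.negMulLog_mul, Finset.sum_add_distrib, ← Finset.sum_mul, ← Finset.mul_sum]
  ring

lemma exists_factor {A : Matrix n n ℂ} (hA : A.PosSemidef) : ∃ B : Matrix n n ℂ, A = B * Bᴴ := by
  refine ⟨evU hA.1 * diagonal (fun i => ((√(hA.1.eigenvalues i) : ℝ) : ℂ)), ?_⟩
  conv_lhs => rw [spec hA.1]
  rw [conjTranspose_mul, diagonal_conjTranspose, Matrix.mul_assoc, Matrix.mul_assoc,
    ← Matrix.mul_assoc (diagonal _), diagonal_mul_diagonal, star_eq_conjTranspose]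
  congr 3
  ext i
  simp only [Pi.star_apply, RCLike.star_def, Complex.conj_ofReal]
  rw [← Complex.ofReal_mul, Real.mul_self_sqrt (hA.eigenvalues_nonneg i)]

lemma ent_empty (A : Matrix Empty Empty ℂ) : ent A = 0 := by
  have h : A.IsHermitian := by ext i; exact i.elim
  rw [ent, trf_eq _ h]; simp

lemma entn_add {X Z : Matrix n n ℂ} (hX : X.PosSemidef) (hZ : Z.PosSemidef) :
    entn X + entn Z ≤ entn (X + Z) := by
  obtain ⟨B, rfl⟩ := exists_factor hX
  have h := main_lemma B (0 : Matrix Empty n ℂ) hZ (PosSemidef.zero (n := Empty)) rfl rfl rfl rfl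
    (g1 := (B * Bᴴ).trace.re + Z.trace.re) (g2 := 0)
    (add_nonneg (tr_nonneg hX) (tr_nonneg hZ)) le_rfl (by simp) (by simp)
  have e : ent (blk B (0 : Matrix Empty n ℂ) Z (0 : Matrix Empty Empty ℂ))
      = ent (B * Bᴴ + Z) := by
    rw [ent, ent, ← trf_submatrix _ _ (Equiv.sumEmpty n Empty).symm]
    congr 1
  rw [e, ent_empty, ent_empty] at h
  simp only [entn, trace_add, Complex.add_re]
  simp only [trace_zero, Complex.zero_re, Real.negMulLog_zero, Matrix.zero_mul] at h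
  linarith

lemma exists_split {c x z : ℝ} (hc : 0 ≤ c) (hx : 0 ≤ x) (hz : 0 ≤ z) (h : c ^ 2 ≤ x * z) :
    ∃ α β : ℝ, α * β = c ∧ α ^ 2 ≤ x ∧ β ^ 2 ≤ z := by
  rcases hz.eq_or_lt with h0 | h0
  · have : c = 0 := by rw [← h0, mul_zero] at h; nlinarith
    exact ⟨0, 0, by simp [this], by simpa using hx, by simpa using hz⟩
  · have h1 : 0 < √z := Real.sqrt_pos.mpr h0
    refine ⟨c / √z, √z, by field_simp, ?_, (Real.sq_sqrt hz).le⟩
    rw [div_pow, Real.sq_sqrt hz, div_le_iff₀ h0]; exact h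

/-- The block form of the channel acting on the first factor. -/
def chanBlk (s0 s1 c : ℝ) (X Y Y' Z : Matrix n n ℂ) : Matrix (n ⊕ n) (n ⊕ n) ℂ :=
  fromBlocks (((1 - s0 : ℝ) : ℂ) • X + (s1 : ℂ) • Z) ((c : ℂ) • Y) ((c : ℂ) • Y')
    ((s0 : ℂ) • X + ((1 - s1 : ℝ) : ℂ) • Z)

lemma key_block {s0 s1 c : ℝ} (hs0 : 0 ≤ s0) (hs1 : 0 ≤ s1) (hs0' : s0 ≤ 1) (hs1' : s1 ≤ 1)
    (hc : 0 ≤ c) (hcc : c ^ 2 ≤ (1 - s0) * (1 - s1)) {X Y Y' Z : Matrix n n ℂ}
    (hM : (fromBlocks X Y Y' Z).PosSemidef) {g1 g2 : ℝ} (hg1 : 0 ≤ g1) (hg2 : 0 ≤ g2)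
    (hsum : g1 + g2 = X.trace.re + Z.trace.re)
    (hprod : g1 * g2 = ((1 - s0) * X.trace.re + s1 * Z.trace.re)
      * (s0 * X.trace.re + (1 - s1) * Z.trace.re) - c ^ 2 * (X.trace.re * Z.trace.re)) :
    negMulLog g1 + negMulLog g2 + entn X + entn Z ≤ ent (chanBlk s0 s1 c X Y Y' Z) := by
  obtain ⟨T, hT⟩ := exists_factor hM
  rw [← fromRows_toRows T, conjTranspose_fromRows_eq_fromCols_conjTranspose,
    fromRows_mul_fromCols, fromBlocks_inj] at hT
  obtain ⟨rfl, rfl, rfl, rfl⟩ := hT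
  set a := T.toRows₁
  set b := T.toRows₂
  obtain ⟨α, β, hαβ, hα, hβ⟩ := exists_split hc (sub_nonneg.mpr hs0') (sub_nonneg.mpr hs1') hcc
  have hX := posSemidef_self_mul_conjTranspose a
  have hZ := posSemidef_self_mul_conjTranspose b
  have hP1 := psd_smul hX (sub_nonneg.mpr hα)
  have hP2 := psd_smul hZ hs1
  have hQ1 := psd_smul hX hs0
  have hQ2 := psd_smul hZ (sub_nonneg.mpr hβ)
  have eA : ((α : ℂ) • a) * ((α : ℂ) • a)ᴴ = ((α ^ 2 : ℝ) : ℂ) • (a * aᴴ) := by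
    rw [conjTranspose_smul, Matrix.smul_mul, Matrix.mul_smul, smul_smul]
    simp [sq]
  have eC : ((β : ℂ) • b) * ((β : ℂ) • b)ᴴ = ((β ^ 2 : ℝ) : ℂ) • (b * bᴴ) := by
    rw [conjTranspose_smul, Matrix.smul_mul, Matrix.mul_smul, smul_smul]
    simp [sq]
  have h := main_lemma ((α : ℂ) • a) ((β : ℂ) • b) (hP1.add hP2) (hQ1.add hQ2) rfl rfl rfl rfl
    hg1 hg2 (by
      rw [eA, eC, hsum]
      simp only [trace_add, Complex.add_re, tr_smul]; ring) (by
      rw [eA, eC, hprod, ← hαβ]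
      simp only [trace_add, Complex.add_re, tr_smul]; ring)
  have eN : blk ((α : ℂ) • a) ((β : ℂ) • b)
      (((1 - s0 - α ^ 2 : ℝ) : ℂ) • (a * aᴴ) + (s1 : ℂ) • (b * bᴴ))
      ((s0 : ℂ) • (a * aᴴ) + ((1 - s1 - β ^ 2 : ℝ) : ℂ) • (b * bᴴ))
      = chanBlk s0 s1 c (a * aᴴ) (a * bᴴ) (b * aᴴ) (b * bᴴ) := by
    rw [blk, chanBlk, eA, eC, ← hαβ]
    congr 1
    · push_cast; module
    · rw [conjTranspose_smul, Matrix.smul_mul, Matrix.mul_smul, smul_smul]; simp
    · rw [conjTranspose_smul, Matrix.smul_mul, Matrix.mul_smul, smul_smul]; simp [mul_comm]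
    · push_cast; module
  rw [eN, eA, eC] at h
  have a1 := entn_add hP1 hP2
  have a2 := entn_add hQ1 hQ2
  rw [entn_smul hX.1, entn_smul hZ.1] at a1 a2
  have a3 := entn_smul hX.1 (α ^ 2)
  have a4 := entn_smul hZ.1 (β ^ 2)
  simp only [entn] at a1 a2 a3 a4 ⊢
  linarith

lemma key_gad {γ ν : ℝ} (hγ : γ ∈ Icc (0 : ℝ) 1) (hν : ν ∈ Icc (0 : ℝ) 1)
    {X Y Y' Z : Matrix n n ℂ} (hM : (fromBlocks X Y Y' Z).PosSemidef) :
    (X.trace.re + Z.trace.re) * ee γ ν (Z.trace.re / (X.trace.re + Z.trace.re))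
      + entn X + entn Z + negMulLog (X.trace.re + Z.trace.re)
      ≤ ent (chanBlk (γ * ν) (γ * (1 - ν)) (√(1 - γ)) X Y Y' Z) := by
  have hX : X.PosSemidef := hM.submatrix Sum.inl
  have hZ : Z.PosSemidef := hM.submatrix Sum.inr
  have hx := tr_nonneg hX
  have hz := tr_nonneg hZ
  have g0 := hγ.1
  have g1 := hγ.2
  have n0 := hν.1
  have n1 := hν.2
  set x := X.trace.re with hxd
  set z := Z.trace.re with hzd
  set t := x + z with ht
  have ht0 : 0 ≤ t := add_nonneg hx hz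
  set q := z / t with hq
  have hq01 : q ∈ Icc (0 : ℝ) 1 :=
    ⟨div_nonneg hz ht0, div_le_one_of_le₀ (by linarith) ht0⟩
  have hzq : z = t * q := by
    rcases ht0.eq_or_lt with h | h
    · have : z = 0 := by linarith
      rw [this, ← h, zero_mul]
    · rw [hq]; field_simp
  set r := √(1 - 4 * dd γ ν q) with hr
  have hr0 : 0 ≤ r := Real.sqrt_nonneg _
  have hr2 : r ^ 2 = 1 - 4 * dd γ ν q := Real.sq_sqrt (dd_le hγ hq01)
  have hr1 : r ≤ 1 := Real.sqrt_le_one.mpr (by linarith [dd_nonneg hγ hν q])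
  have h := key_block (s0 := γ * ν) (s1 := γ * (1 - ν)) (c := √(1 - γ)) (by positivity)
    (mul_nonneg g0 (by linarith)) (by nlinarith) (by nlinarith) (Real.sqrt_nonneg _) (by
      rw [Real.sq_sqrt (by linarith)]
      nlinarith [mul_nonneg (mul_nonneg (mul_nonneg g0 g0) n0) (sub_nonneg.mpr n1)]) hM
    (g1 := t * ((1 + r) / 2)) (g2 := t * (1 - (1 + r) / 2)) (by positivity)
    (mul_nonneg ht0 (by linarith)) (by ring) (by
      rw [Real.sq_sqrt (by linarith), ← hxd, ← hzd, show x = t - z by linarith, hzq]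
      unfold dd at hr2
      linear_combination (-(t ^ 2) / 4) * hr2)
  have h2 := persp_bin t ((1 + r) / 2)
  change t * binEntropy ((1 + r) / 2) + entn X + entn Z + negMulLog t ≤ _
  linarith

end Vale.Agent.P358
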