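import Vale.Agent.P358.Mix

set_option linter.unusedSectionVars false

namespace Vale.Agent.P358

open Matrix MeasureTheory Set Filter Topology
open Real (negMulLog)
open scoped ComplexOrder

variable {n m E : Type} [Fintype n] [DecidableEq n] [Fintype m] [DecidableEq m]
  [Fintype E] [DecidableEq E]

/-- Entropy in nats of a (not necessarily normalized) matrix. -/
noncomputable def ent (A : Matrix n n ℂ) : ℝ := trf negMulLog A

lemma log_shift_int (x a b : ℝ) : IntervalIntegrable (fun s => Real.log (s + x)) volume a b := by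
  have := (intervalIntegral.intervalIntegrable_log' (a := a + x) (b := b + x)).comp_add_right x
  simpa using this

lemma integral_log_shift (x l R : ℝ) :
    ∫ s in l..R, Real.log (s + x) = negMulLog (l + x) - negMulLog (R + x) - (R - l) := by
  rw [intervalIntegral.integral_comp_add_right (fun s => Real.log s) x, integral_log]
  simp only [negMulLog]; ring

lemma trf_log_int {H : Matrix n n ℂ} (hH : H.IsHermitian) (R : ℝ) :
    IntervalIntegrable (fun s => trf (fun x => Real.log (s + x)) H) volume 0 R := by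
  simp_rw [trf_eq _ hH]
  exact intInt_sum _ fun i _ => log_shift_int _ _ _

lemma integral_trf_log {H : Matrix n n ℂ} (hH : H.IsHermitian) (R : ℝ) :
    ∫ s in (0 : ℝ)..R, trf (fun x => Real.log (s + x)) H
      = ent H - trf (fun x => negMulLog (R + x)) H - Fintype.card n * R := by
  simp_rw [ent, trf_eq _ hH]
  rw [intervalIntegral.integral_finsetSum fun i _ => log_shift_int _ _ _]
  simp only [integral_log_shift, Finset.sum_sub_distrib, zero_add, sub_zero, Finset.sum_const,
    Finset.card_univ, nsmul_eq_mul]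

lemma scale_one {h : ℝ → ℝ} (hm : Monotone h) (h0 : h 0 = 0) {M : ℝ} (hM : ∀ y, h y ≤ M)
    {a x R w : ℝ} (hx : 0 < x) (hxa : x ≤ a) (hR : 0 < R)
    (hw : ∀ s, R ≤ s → w * (a / s) ≤ h (a / s)) :
    x / a * (∫ s in (0 : ℝ)..R, h (a / s)) + w * (negMulLog x + x * Real.log a)
      ≤ ∫ s in (0 : ℝ)..R, h (x / s) := by
  have ha : 0 < a := hx.trans_le hxa
  set c := a / x with hc
  have hc1 : 1 ≤ c := by rw [hc, le_div_iff₀ hx]; linarith
  have hRc : R ≤ R * c := by nlinarith
  have e1 : (∫ s in (0 : ℝ)..R, h (x / s)) = ∫ s in (0 : ℝ)..R, (fun t => h (a / t)) (s * c) := by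
    congr 1; ext s
    congr 1
    by_cases hs : s = 0
    · simp [hs]
    · rw [hc]; field_simp
  rw [e1, intervalIntegral.integral_comp_mul_right (fun t => h (a / t)) (by linarith : c ≠ 0),
    zero_mul, ← intervalIntegral.integral_add_adjacent_intervals (b := R)
      (hdiv_int hm h0 hM ha.le le_rfl hR.le) (hdiv_int hm h0 hM ha.le hR.le hRc)]
  have e2 : w * a * Real.log c ≤ ∫ s in R..R * c, h (a / s) := by
    have i1 : IntervalIntegrable (fun s : ℝ => w * a * s⁻¹) volume R (R * c) := by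
      refine (ContinuousOn.intervalIntegrable ?_)
      refine continuousOn_const.mul (continuousOn_inv₀.mono fun s hs => ?_)
      rw [uIcc_of_le hRc] at hs
      exact (hR.trans_le hs.1).ne'
    have e3 : ∫ s in R..R * c, w * a * s⁻¹ = w * a * Real.log c := by
      rw [intervalIntegral.integral_const_mul, integral_inv_of_pos hR (hR.trans_le hRc),
        mul_div_cancel_left₀ _ hR.ne']
    rw [← e3]
    refine intervalIntegral.integral_mono_on hRc i1 (hdiv_int hm h0 hM ha.le hR.le hRc)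
      fun s hs => ?_
    have := hw s hs.1
    rwa [div_eq_mul_inv a s, ← mul_assoc, ← div_eq_mul_inv a s] at this
  have e4 : c⁻¹ = x / a := by rw [hc, inv_div]
  have e5 : w * (negMulLog x + x * Real.log a) = x / a * (w * a * Real.log c) := by
    rw [hc, Real.log_div ha.ne' hx.ne', negMulLog]; field_simp; ring
  rw [smul_eq_mul, e4, e5, mul_add]
  have : 0 ≤ x / a := div_nonneg hx.le ha.le
  linarith [mul_le_mul_of_nonneg_left e2 this]

lemma scale_sum {ι : Type} [Fintype ι] {h : ℝ → ℝ} (hm : Monotone h) (h0 : h 0 = 0) {M : ℝ}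
    (hM : ∀ y, h y ≤ M) {x : ι → ℝ} (hx : ∀ i, 0 ≤ x i) {a R w : ℝ} (ha : ∑ i, x i = a)
    (hR : 0 < R) (hw : ∀ s, R ≤ s → w * (a / s) ≤ h (a / s)) :
    (∫ s in (0 : ℝ)..R, h (a / s)) + w * (∑ i, negMulLog (x i) - negMulLog a)
      ≤ ∑ i, ∫ s in (0 : ℝ)..R, h (x i / s) := by
  have ha0 : 0 ≤ a := ha ▸ Finset.sum_nonneg fun i _ => hx i
  have hxa : ∀ i, x i ≤ a := fun i =>
    ha ▸ Finset.single_le_sum (fun i _ => hx i) (Finset.mem_univ i)
  rcases ha0.eq_or_lt with h1 | h1
  · have : ∀ i, x i = 0 := fun i => le_antisymm (h1 ▸ hxa i) (hx i)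
    simp [this, ← h1, h0]
  · have key : ∀ i, x i / a * (∫ s in (0 : ℝ)..R, h (a / s))
        + w * (negMulLog (x i) + x i * Real.log a) ≤ ∫ s in (0 : ℝ)..R, h (x i / s) := by
      intro i
      rcases (hx i).eq_or_lt with h2 | h2
      · simp [← h2, h0]
      · exact scale_one hm h0 hM h2 (hxa i) hR hw
    refine le_trans (le_of_eq ?_) (Finset.sum_le_sum fun i _ => key i)
    rw [Finset.sum_add_distrib, ← Finset.sum_mul, ← Finset.sum_div, ha, div_self h1.ne',
      ← Finset.mul_sum, Finset.sum_add_distrib, ← Finset.sum_mul, ha, negMulLog]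
    ring

lemma shift_bound {h : ℝ → ℝ} (hm : Monotone h) (h0 : h 0 = 0) {a b l0 R R' : ℝ} (ha : 0 ≤ a)
    (hb : 0 ≤ b) (hl : 0 < l0) (hM : ∀ y, h y ≤ h (a / (l0 + b))) (h1 : l0 ≤ R')
    (h2 : R' + b ≤ R) :
    (∫ s in l0..R', h (a / (s + b)))
      ≤ (∫ s in (0 : ℝ)..R, h (a / s)) - h (a / (l0 + b)) * b := by
  have hbR : b ≤ R := by linarith
  rw [← intervalIntegral.integral_add_adjacent_intervals (b := b)
      (hdiv_int hm h0 hM ha le_rfl hb) (hdiv_int hm h0 hM ha hb hbR),
    intervalIntegral.integral_comp_add_right (fun s => h (a / s)) b]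
  have e1 : h (a / (l0 + b)) * b ≤ ∫ s in (0 : ℝ)..b, h (a / s) := by
    have : ∫ _ in (0 : ℝ)..b, h (a / (l0 + b)) = h (a / (l0 + b)) * b := by simp [mul_comm]
    rw [← this]
    refine intervalIntegral.integral_mono_on_of_le_Ioo hb intervalIntegrable_const
      (hdiv_int hm h0 hM ha le_rfl hb) fun s hs => hm ?_
    exact div_le_div_of_nonneg_left ha hs.1 (by linarith [hs.2])
  have e2 : (∫ s in l0 + b..R' + b, h (a / s)) ≤ ∫ s in b..R, h (a / s) := by
    refine intervalIntegral.integral_mono_interval (by linarith) (by linarith) h2 ?_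
      (hdiv_int hm h0 hM ha hb hbR)
    refine (ae_restrict_iff' measurableSet_Ioc).mpr (Eventually.of_forall fun s hs => ?_)
    have := hm (div_nonneg ha (hb.trans hs.1.le))
    rw [h0] at this
    exact this
  linarith

lemma shift_int {h : ℝ → ℝ} (hm : Monotone h) (h0 : h 0 = 0) {M : ℝ} (hM : ∀ y, h y ≤ M)
    {a b l R : ℝ} (ha : 0 ≤ a) (hb : 0 ≤ b) (hl : 0 ≤ l) (hlR : l ≤ R) :
    IntervalIntegrable (fun s => h (a / (s + b))) volume l R := by
  have := (hdiv_int hm h0 hM ha (add_nonneg hl hb) (by linarith : l + b ≤ R + b)).comp_add_right b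
  simpa using this

lemma one_side {h : ℝ → ℝ} (hm : Monotone h) (h0 : h 0 = 0)
    (hl : ∀ y y', y' ≤ y → h y - h y' ≤ y - y') {P : Matrix n n ℂ} (hP : P.PosSemidef)
    (A : Matrix n E ℂ) {l0 R R' w δ : ℝ} (hl0 : 0 < l0)
    (hu : ∀ y, h y ≤ h ((A * Aᴴ).trace.re / (l0 + P.trace.re))) (h1 : l0 ≤ R')
    (h2 : R' + P.trace.re ≤ R) (hδ : 0 < δ)
    (hw : ∀ y, 0 ≤ y → y ≤ (A * Aᴴ).trace.re / (R' + P.trace.re) → y / w ≤ h y) :
    ∃ σ : ℝ → ℝ, IntervalIntegrable σ volume 0 R ∧
      (∀ s, 0 < s → σ s ≤ trf h (Us s P A)) ∧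
      (∫ s in l0..R', h ((A * Aᴴ).trace.re / (s + P.trace.re)))
        + w⁻¹ * (ent (A * Aᴴ) - negMulLog (A * Aᴴ).trace.re) - δ ≤ ∫ s in (0 : ℝ)..R, σ s := by
  have hX := posSemidef_self_mul_conjTranspose A
  have hb : 0 ≤ P.trace.re := (Complex.nonneg_iff.mp hP.trace_nonneg).1
  have ha : 0 ≤ (A * Aᴴ).trace.re := (Complex.nonneg_iff.mp hX.trace_nonneg).1
  have hR : 0 < R := by linarith
  obtain ⟨σ, i1, i2, i3⟩ := lemK hm h0 hl hu hP A hR hδ
  refine ⟨σ, i1, i2, le_trans ?_ i3⟩
  have e1 := scale_sum hm h0 hu hX.eigenvalues_nonneg (sum_eig hX.1) hR (w := w⁻¹) (by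
    intro s hs
    rw [← div_eq_inv_mul]
    exact hw _ (div_nonneg ha (by linarith))
      (div_le_div_of_nonneg_left ha (by linarith) (by linarith)))
  have e2 := shift_bound hm h0 ha hb hl0 hu h1 h2
  rw [ent, trf_eq _ hX.1]
  linarith

lemma main_finite (A : Matrix n E ℂ) (C : Matrix m E ℂ) {P : Matrix n n ℂ} {Q : Matrix m m ℂ}
    (hP : P.PosSemidef) (hQ : Q.PosSemidef) {a b c f g1 g2 : ℝ} (ha : (A * Aᴴ).trace.re = a)
    (hb : P.trace.re = b) (hc : (C * Cᴴ).trace.re = c) (hf : Q.trace.re = f)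
    (hg1 : 0 ≤ g1) (hg2 : 0 ≤ g2) (hsum : g1 + g2 = a + b + c + f)
    (hprod : g1 * g2 = b * f + a * f + b * c) {l0 R' : ℝ} (hl0 : 0 < l0) (h1 : l0 ≤ R') :
    (negMulLog (l0 + g1) + negMulLog (l0 + g2) - negMulLog (l0 + b) - negMulLog (l0 + f))
      + (1 + (a / (R' + b) + c / (R' + f)))⁻¹
        * (ent (A * Aᴴ) - negMulLog a + (ent (C * Cᴴ) - negMulLog c))
      + (trf (fun x => negMulLog (R' + b + f + x)) (blk A C P Q)
        - trf (fun x => negMulLog (R' + b + f + x)) P
        - trf (fun x => negMulLog (R' + b + f + x)) Q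
        - negMulLog (R' + g1) - negMulLog (R' + g2) + negMulLog (R' + b) + negMulLog (R' + f))
      ≤ ent (blk A C P Q) - ent P - ent Q := by
  have hb0 : 0 ≤ b := hb ▸ (Complex.nonneg_iff.mp hP.trace_nonneg).1
  have hf0 : 0 ≤ f := hf ▸ (Complex.nonneg_iff.mp hQ.trace_nonneg).1
  have ha0 : 0 ≤ a :=
    ha ▸ (Complex.nonneg_iff.mp (posSemidef_self_mul_conjTranspose A).trace_nonneg).1
  have hc0 : 0 ≤ c :=
    hc ▸ (Complex.nonneg_iff.mp (posSemidef_self_mul_conjTranspose C).trace_nonneg).1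
  set R := R' + b + f with hR
  have hR0 : 0 < R := by linarith
  obtain ⟨h1, h2, ⟨m1, z1, l1, u1, c1, w1⟩, ⟨m2, z2, l2, u2, c2, w2⟩, hle, hge⟩ :=
    exists_pair ha0 hb0 hc0 hf0 hl0
  refine le_of_forall_pos_le_add fun δ hδ => ?_
  obtain ⟨σ1, i1, j1, k1⟩ := one_side m1 z1 l1 hP A (R := R) (R' := R')
    (w := 1 + (a / (R' + b) + c / (R' + f))) hl0 (by rw [ha, hb]; exact u1) ‹l0 ≤ R'›
    (by rw [hb]; linarith) (half_pos hδ) (by rw [ha, hb]; exact w1 R' ‹l0 ≤ R'›)
  obtain ⟨σ2, i2, j2, k2⟩ := one_side m2 z2 l2 hQ C (R := R) (R' := R')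
    (w := 1 + (a / (R' + b) + c / (R' + f))) hl0 (by rw [hc, hf]; exact u2) ‹l0 ≤ R'›
    (by rw [hf]; linarith) (half_pos hδ) (by rw [hc, hf]; exact w2 R' ‹l0 ≤ R'›)
  rw [ha, hb] at k1
  rw [hc, hf] at k2
  have hN := blk_psd A C hP hQ
  have p1 : (∫ s in (0 : ℝ)..R, (σ1 s + σ2 s)) ≤ ∫ s in (0 : ℝ)..R,
      (trf (fun x => Real.log (s + x)) (blk A C P Q) - trf (fun x => Real.log (s + x)) P
        - trf (fun x => Real.log (s + x)) Q) := by
    refine intervalIntegral.integral_mono_on_of_le_Ioo hR0.le (i1.add i2)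
      (((trf_log_int hN.1 R).sub (trf_log_int hP.1 R)).sub (trf_log_int hQ.1 R)) fun s hs => ?_
    have hU := Us_psd hP hs.1 A
    have hV := Us_psd hQ hs.1 C
    have hW := hU.add hV
    have q1 := pinch c1 hU.1 (fun _ => mem_univ _) (evU hW.1) (evU_star_mul _)
    have q2 := pinch c2 hV.1 (fun _ => mem_univ _) (evU hW.1) (evU_star_mul _)
    have q3 : ∑ k, h1 (dg (evU hW.1) (Us s P A) k) + ∑ k, h2 (dg (evU hW.1) (Us s Q C) k)
        ≤ trf (fun x => Real.log (1 + x)) (Us s P A + Us s Q C) := by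
      rw [trf_eq _ hW.1, ← Finset.sum_add_distrib]
      refine Finset.sum_le_sum fun k _ => ?_
      rw [← dg_evU hW.1 k, dg_add]
      exact hle _ _ (dg_nonneg _ hU k) (dg_nonneg _ hV k)
    rw [blk_log A C hP hQ hs.1]
    linarith [j1 s hs.1, j2 s hs.1]
  rw [intervalIntegral.integral_add i1 i2, intervalIntegral.integral_sub
    ((trf_log_int hN.1 R).sub (trf_log_int hP.1 R)) (trf_log_int hQ.1 R),
    intervalIntegral.integral_sub (trf_log_int hN.1 R) (trf_log_int hP.1 R),
    integral_trf_log hN.1, integral_trf_log hP.1, integral_trf_log hQ.1, Fintype.card_sum] at p1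
  have p2 : (∫ s in l0..R', (Real.log (s + g1) + Real.log (s + g2) - Real.log (s + b)
      - Real.log (s + f))) ≤ ∫ s in l0..R', (h1 (a / (s + b)) + h2 (c / (s + f))) := by
    refine intervalIntegral.integral_mono_on ‹l0 ≤ R'›
      ((((log_shift_int _ _ _).add (log_shift_int _ _ _)).sub (log_shift_int _ _ _)).sub
        (log_shift_int _ _ _))
      ((shift_int m1 z1 u1 ha0 hb0 hl0.le ‹l0 ≤ R'›).add
        (shift_int m2 z2 u2 hc0 hf0 hl0.le ‹l0 ≤ R'›)) fun s hs => ?_
    refine le_trans (le_of_eq ?_) (hge s hs.1)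
    have hs0 : 0 < s := hl0.trans_le hs.1
    have a1 : s + g1 ≠ 0 := by linarith
    have a2 : s + g2 ≠ 0 := by linarith
    have a3 : s + b ≠ 0 := by linarith
    have a4 : s + f ≠ 0 := by linarith
    rw [← Real.log_mul a1 a2, ← Real.log_div (mul_ne_zero a1 a2) a3,
      ← Real.log_div (div_ne_zero (mul_ne_zero a1 a2) a3) a4]
    congr 1
    field_simp
    linear_combination s * hsum + hprod
  rw [intervalIntegral.integral_add (shift_int m1 z1 u1 ha0 hb0 hl0.le ‹l0 ≤ R'›)
      (shift_int m2 z2 u2 hc0 hf0 hl0.le ‹l0 ≤ R'›),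
    intervalIntegral.integral_sub (((log_shift_int _ _ _).add (log_shift_int _ _ _)).sub
      (log_shift_int _ _ _)) (log_shift_int _ _ _),
    intervalIntegral.integral_sub ((log_shift_int _ _ _).add (log_shift_int _ _ _))
      (log_shift_int _ _ _),
    intervalIntegral.integral_add (log_shift_int _ _ _) (log_shift_int _ _ _)] at p2
  simp only [integral_log_shift] at p2
  push_cast at p1
  linarith

lemma rem_tendsto (x : ℝ) :
    Tendsto (fun R => negMulLog (R + x) - negMulLog R + x * (Real.log R + 1)) atTop (𝓝 0) := by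
  have h1 := Real.tendsto_mul_log_one_add_div_atTop x
  have h2 : Tendsto (fun R : ℝ => Real.log (1 + x / R)) atTop (𝓝 0) := by
    have : Tendsto (fun R : ℝ => 1 + x / R) atTop (𝓝 (1 + 0)) :=
      tendsto_const_nhds.add (tendsto_const_nhds.div_atTop tendsto_id)
    have h3 := this.log (by norm_num)
    simpa using h3
  have h3 : Tendsto (fun R : ℝ => x - R * Real.log (1 + x / R) - x * Real.log (1 + x / R))
      atTop (𝓝 (x - x - x * 0)) :=
    (tendsto_const_nhds.sub h1).sub (tendsto_const_nhds.mul h2)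
  rw [sub_self, mul_zero, sub_zero] at h3
  refine h3.congr' ?_
  filter_upwards [eventually_gt_atTop 0, eventually_gt_atTop (-x)] with R hR hRx
  have e : R + x = R * (1 + x / R) := by field_simp
  have hp : 1 + x / R ≠ 0 := by
    intro h; rw [h, mul_zero] at e; linarith
  have : Real.log (R + x) = Real.log R + Real.log (1 + x / R) := by
    rw [e, Real.log_mul hR.ne' hp]
  simp only [negMulLog, this]
  ring

lemma trf_rem_tendsto {H : Matrix n n ℂ} (hH : H.IsHermitian) :
    Tendsto (fun R => trf (fun x => negMulLog (R + x)) H - Fintype.card n * negMulLog R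
      + H.trace.re * (Real.log R + 1)) atTop (𝓝 0) := by
  have h := tendsto_finsetSum (Finset.univ : Finset n)
    fun i _ => rem_tendsto (hH.eigenvalues i)
  rw [Finset.sum_const_zero] at h
  refine h.congr fun R => ?_
  rw [trf_eq _ hH, ← sum_eig hH, Finset.sum_add_distrib, Finset.sum_sub_distrib, Finset.sum_mul]
  simp

lemma blk_trace (A : Matrix n E ℂ) (C : Matrix m E ℂ) (P : Matrix n n ℂ) (Q : Matrix m m ℂ) :
    (blk A C P Q).trace.re
      = (A * Aᴴ).trace.re + P.trace.re + (C * Cᴴ).trace.re + Q.trace.re := by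
  have : (blk A C P Q).trace = (A * Aᴴ + P).trace + (C * Cᴴ + Q).trace := by
    simp [blk, Matrix.trace, Fintype.sum_sum_type]
  rw [this, trace_add, trace_add]
  simp only [Complex.add_re]; ring

/-- The main block entropy inequality. -/
theorem main_lemma (A : Matrix n E ℂ) (C : Matrix m E ℂ) {P : Matrix n n ℂ} {Q : Matrix m m ℂ}
    (hP : P.PosSemidef) (hQ : Q.PosSemidef) {a b c f g1 g2 : ℝ} (ha : (A * Aᴴ).trace.re = a)
    (hb : P.trace.re = b) (hc : (C * Cᴴ).trace.re = c) (hf : Q.trace.re = f)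
    (hg1 : 0 ≤ g1) (hg2 : 0 ≤ g2) (hsum : g1 + g2 = a + b + c + f)
    (hprod : g1 * g2 = b * f + a * f + b * c) :
    negMulLog g1 + negMulLog g2 + (ent P - negMulLog b) + (ent Q - negMulLog f)
      + (ent (A * Aᴴ) - negMulLog a) + (ent (C * Cᴴ) - negMulLog c) ≤ ent (blk A C P Q) := by
  have hN := blk_psd A C hP hQ
  set T := ent (A * Aᴴ) - negMulLog a + (ent (C * Cᴴ) - negMulLog c) with hT
  have step : ∀ l0, 0 < l0 →
      (negMulLog (l0 + g1) + negMulLog (l0 + g2) - negMulLog (l0 + b) - negMulLog (l0 + f)) + T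
        ≤ ent (blk A C P Q) - ent P - ent Q := by
    intro l0 hl0
    have sh : Tendsto (fun R' : ℝ => R' + b + f) atTop atTop :=
      tendsto_atTop_add_const_right _ _ (tendsto_atTop_add_const_right _ _ tendsto_id)
    have t1 : Tendsto (fun R' : ℝ => (1 + (a / (R' + b) + c / (R' + f)))⁻¹) atTop
        (𝓝 (1 + (0 + 0))⁻¹) := by
      refine Tendsto.inv₀ (tendsto_const_nhds.add (Tendsto.add ?_ ?_)) (by norm_num)
      · exact tendsto_const_nhds.div_atTop (tendsto_atTop_add_const_right _ _ tendsto_id)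
      · exact tendsto_const_nhds.div_atTop (tendsto_atTop_add_const_right _ _ tendsto_id)
    have t2 := ((((((((trf_rem_tendsto hN.1).sub (trf_rem_tendsto hP.1)).sub
      (trf_rem_tendsto hQ.1)).sub (rem_tendsto (g1 - b - f))).sub (rem_tendsto (g2 - b - f))).add
      (rem_tendsto (-f))).add (rem_tendsto (-b)))).comp sh
    have t3 : Tendsto (fun R' : ℝ => trf (fun x => negMulLog (R' + b + f + x)) (blk A C P Q)
        - trf (fun x => negMulLog (R' + b + f + x)) P
        - trf (fun x => negMulLog (R' + b + f + x)) Q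
        - negMulLog (R' + g1) - negMulLog (R' + g2) + negMulLog (R' + b) + negMulLog (R' + f))
        atTop (𝓝 (0 - 0 - 0 - 0 - 0 + 0 + 0)) := by
      refine t2.congr fun R' => ?_
      simp only [Function.comp, blk_trace, ha, hb, hc, hf, Fintype.card_sum]
      rw [show R' + b + f + (g1 - b - f) = R' + g1 by ring,
        show R' + b + f + (g2 - b - f) = R' + g2 by ring,
        show R' + b + f + -f = R' + b by ring, show R' + b + f + -b = R' + f by ring]
      push_cast
      linear_combination (-(Real.log (R' + b + f) + 1)) * hsum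
    have t4 := (tendsto_const_nhds (x := negMulLog (l0 + g1) + negMulLog (l0 + g2)
      - negMulLog (l0 + b) - negMulLog (l0 + f)).add (t1.mul_const T)).add t3
    have := le_of_tendsto t4 (by
      filter_upwards [eventually_ge_atTop l0] with R' hR'
      exact main_finite A C hP hQ ha hb hc hf hg1 hg2 hsum hprod hl0 hR')
    simpa using this
  have cont : Continuous fun l0 : ℝ => (negMulLog (l0 + g1) + negMulLog (l0 + g2)
      - negMulLog (l0 + b) - negMulLog (l0 + f)) + T := by
    have := Real.continuous_negMulLog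
    fun_prop
  have t5 := (cont.tendsto 0).mono_left (nhdsWithin_le_nhds (s := Ioi 0))
  have := le_of_tendsto t5 (by
    filter_upwards [self_mem_nhdsWithin] with l0 hl0
    exact step l0 hl0)
  simp only [zero_add] at this
  linarith

end Vale.Agent.P358
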