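import Vale.Agent.P358.Step

namespace Vale.Agent.P358

open MeasureTheory Set

/-- A mixture of truncations. -/
noncomputable def mixh (p : ℝ → ℝ) (K u0 y : ℝ) : ℝ :=
  (∫ t in (0 : ℝ)..K, min y (p t) / (1 + t) ^ 2) + min y u0 / (1 + K)

lemma contOn_w {a b : ℝ} (ha : 0 ≤ a) (hab : a ≤ b) :
    ContinuousOn (fun t : ℝ => ((1 + t) ^ 2)⁻¹) (uIcc a b) := by
  refine ContinuousOn.inv₀ (by fun_prop) fun t ht => ?_
  rw [uIcc_of_le hab] at ht
  have : 0 < 1 + t := by linarith [ht.1]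
  positivity

lemma mono_int {g : ℝ → ℝ} (hg : Monotone g) {a b : ℝ} (ha : 0 ≤ a) (hab : a ≤ b) :
    IntervalIntegrable (fun t => g t / (1 + t) ^ 2) volume a b := by
  simp_rw [div_eq_mul_inv]
  exact hg.intervalIntegrable.mul_continuousOn (contOn_w ha hab)

lemma min_int {p : ℝ → ℝ} (hp : Monotone p) (y : ℝ) {a b : ℝ} (ha : 0 ≤ a) (hab : a ≤ b) :
    IntervalIntegrable (fun t => min y (p t) / (1 + t) ^ 2) volume a b :=
  mono_int (g := fun t => min y (p t)) (monotone_const.min hp) ha hab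

lemma integral_w (y : ℝ) {a b : ℝ} (ha : 0 ≤ a) (hab : a ≤ b) :
    ∫ t in a..b, y / (1 + t) ^ 2 = y / (1 + a) - y / (1 + b) := by
  have h := intervalIntegral.integral_eq_sub_of_hasDerivAt (a := a) (b := b)
    (f := fun t => -(y / (1 + t))) (f' := fun t => y / (1 + t) ^ 2) ?_
    (mono_int (g := fun _ => y) monotone_const ha hab)
  · rw [h]; ring
  · intro t ht
    rw [uIcc_of_le hab] at ht
    have h1 : (1 + t) ≠ 0 := by linarith [ht.1]
    have h2 : HasDerivAt (fun t : ℝ => 1 + t) 1 t := (hasDerivAt_id t).const_add 1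
    have h3 := ((hasDerivAt_const t y).div h2 h1).neg
    refine HasDerivAt.congr_deriv h3 ?_
    ring

lemma integral_tw {b : ℝ} (hb : 0 ≤ b) :
    ∫ t in (0 : ℝ)..b, t / (1 + t) ^ 2 = Real.log (1 + b) - b / (1 + b) := by
  have h := intervalIntegral.integral_eq_sub_of_hasDerivAt (a := 0) (b := b)
    (f := fun t => Real.log (1 + t) + 1 / (1 + t)) (f' := fun t => t / (1 + t) ^ 2) ?_
    (mono_int (g := fun t => t) monotone_id le_rfl hb)
  · rw [h]
    have h1 : (1 + b) ≠ 0 := by linarith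
    simp only [add_zero, Real.log_one, div_one]
    field_simp
    ring
  · intro t ht
    rw [uIcc_of_le hb] at ht
    have h1 : (1 + t) ≠ 0 := by linarith [ht.1]
    have h2 : HasDerivAt (fun t : ℝ => 1 + t) 1 t := (hasDerivAt_id t).const_add 1
    have h3 := (h2.log h1).add ((hasDerivAt_const t (1 : ℝ)).div h2 h1)
    refine HasDerivAt.congr_deriv h3 ?_
    field_simp
    ring

lemma mixh_id {κ K : ℝ} (hκ : 0 ≤ κ) (hK : 0 ≤ K) :
    mixh id K K κ = Real.log (1 + min κ K) := by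
  set m := min κ K with hm
  have hm0 : 0 ≤ m := le_min hκ hK
  have hmK : m ≤ K := min_le_right _ _
  unfold mixh
  rw [← intervalIntegral.integral_add_adjacent_intervals (b := m)
    (min_int monotone_id κ le_rfl hm0) (min_int monotone_id κ hm0 hmK)]
  have e1 : ∫ t in (0 : ℝ)..m, min κ (id t) / (1 + t) ^ 2 = ∫ t in (0 : ℝ)..m, t / (1 + t) ^ 2 := by
    refine intervalIntegral.integral_congr fun t ht => ?_
    rw [uIcc_of_le hm0] at ht
    simp only [id]
    rw [min_eq_right (ht.2.trans (min_le_left _ _))]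
  have e2 : ∫ t in m..K, min κ (id t) / (1 + t) ^ 2 = ∫ t in m..K, m / (1 + t) ^ 2 := by
    refine intervalIntegral.integral_congr fun t ht => ?_
    rw [uIcc_of_le hmK] at ht
    simp only [id]
    congr 1
    apply le_antisymm
    · exact le_min (min_le_left _ _) ((min_le_right _ _).trans ht.2)
    · exact le_min (min_le_left _ _) ht.1
  rw [e1, e2, integral_tw hm0, integral_w m hm0 hmK]
  ring

lemma mixh_mono {p : ℝ → ℝ} (hp : Monotone p) {K : ℝ} (hK : 0 ≤ K) (u0 : ℝ) :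
    Monotone (mixh p K u0) := by
  intro y y' hy
  unfold mixh
  apply add_le_add
  · refine intervalIntegral.integral_mono_on hK (min_int hp y le_rfl hK)
      (min_int hp y' le_rfl hK) fun t _ => ?_
    exact div_le_div_of_nonneg_right (min_le_min_right _ hy) (by positivity)
  · exact div_le_div_of_nonneg_right (min_le_min_right _ hy) (by positivity)

lemma mixh_zero {p : ℝ → ℝ} (hp : ∀ t, 0 ≤ p t) (K : ℝ) {u0 : ℝ} (hu : 0 ≤ u0) :
    mixh p K u0 0 = 0 := by
  unfold mixh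
  simp [min_eq_left (hp _), min_eq_left hu]

lemma min_sub_min_le {y y' : ℝ} (h : y' ≤ y) (c : ℝ) : min y c ≤ min y' c + (y - y') := by
  rcases le_total y' c with h1 | h1
  · rw [min_eq_left h1]; linarith [min_le_left y c]
  · rw [min_eq_right h1]; linarith [min_le_right y c]

lemma mixh_lip {p : ℝ → ℝ} (hp : Monotone p) {K : ℝ} (hK : 0 ≤ K) (u0 : ℝ) (y y' : ℝ)
    (h : y' ≤ y) : mixh p K u0 y - mixh p K u0 y' ≤ y - y' := by
  unfold mixh
  have h1 : (∫ t in (0 : ℝ)..K, min y (p t) / (1 + t) ^ 2)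
      ≤ ∫ t in (0 : ℝ)..K, (min y' (p t) / (1 + t) ^ 2 + (y - y') / (1 + t) ^ 2) := by
    refine intervalIntegral.integral_mono_on hK (min_int hp y le_rfl hK)
      ((min_int hp y' le_rfl hK).add (mono_int (g := fun _ => y - y') monotone_const le_rfl hK))
      fun t _ => ?_
    rw [← add_div]
    exact div_le_div_of_nonneg_right (min_sub_min_le h _) (by positivity)
  rw [intervalIntegral.integral_add (min_int hp y' le_rfl hK)
    (mono_int (g := fun _ => y - y') monotone_const le_rfl hK), integral_w _ le_rfl hK] at h1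
  have h2 : min y u0 / (1 + K) ≤ min y' u0 / (1 + K) + (y - y') / (1 + K) := by
    rw [← add_div]
    exact div_le_div_of_nonneg_right (min_sub_min_le h _) (by positivity)
  simp only [add_zero, div_one] at h1
  linarith

lemma mixh_le {p : ℝ → ℝ} (hp : Monotone p) {K : ℝ} (hK : 0 ≤ K) {u0 : ℝ} (hu : ∀ t, p t ≤ u0)
    (y : ℝ) : mixh p K u0 y ≤ mixh p K u0 u0 := by
  unfold mixh
  apply add_le_add
  · refine intervalIntegral.integral_mono_on hK (min_int hp y le_rfl hK)
      (min_int hp u0 le_rfl hK) fun t _ => ?_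
    refine div_le_div_of_nonneg_right ?_ (by positivity)
    rw [min_eq_right (hu t)]; exact min_le_right _ _
  · refine div_le_div_of_nonneg_right ?_ (by positivity)
    rw [min_self]; exact min_le_right _ _

lemma mixh_concave {p : ℝ → ℝ} (hp : Monotone p) {K : ℝ} (hK : 0 ≤ K) (u0 : ℝ) :
    ConcaveOn ℝ univ (mixh p K u0) := by
  refine ⟨convex_univ, fun x _ y _ s t hs ht hst => ?_⟩
  have key : ∀ c : ℝ, s * min x c + t * min y c ≤ min (s * x + t * y) c := fun c =>
    (concaveOn_min c).2 (mem_univ x) (mem_univ y) hs ht hst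
  simp only [smul_eq_mul]
  unfold mixh
  have h1 : s * (∫ r in (0 : ℝ)..K, min x (p r) / (1 + r) ^ 2)
      + t * (∫ r in (0 : ℝ)..K, min y (p r) / (1 + r) ^ 2)
      ≤ ∫ r in (0 : ℝ)..K, min (s * x + t * y) (p r) / (1 + r) ^ 2 := by
    rw [← intervalIntegral.integral_const_mul, ← intervalIntegral.integral_const_mul,
      ← intervalIntegral.integral_add ((min_int hp x le_rfl hK).const_mul s)
        ((min_int hp y le_rfl hK).const_mul t)]
    refine intervalIntegral.integral_mono_on hK (((min_int hp x le_rfl hK).const_mul s).add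
      ((min_int hp y le_rfl hK).const_mul t)) (min_int hp _ le_rfl hK) fun r _ => ?_
    rw [← mul_div_assoc, ← mul_div_assoc, ← add_div]
    exact div_le_div_of_nonneg_right (key _) (by positivity)
  have h2 : s * (min x u0 / (1 + K)) + t * (min y u0 / (1 + K))
      ≤ min (s * x + t * y) u0 / (1 + K) := by
    rw [← mul_div_assoc, ← mul_div_assoc, ← add_div]
    exact div_le_div_of_nonneg_right (key _) (by positivity)
  linarith

lemma mixh_pair_le {p r : ℝ → ℝ} (hp : Monotone p) (hr : Monotone r) {K u0 v0 : ℝ} (hK : 0 ≤ K)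
    (hpr : ∀ t, 0 ≤ t → p t + r t ≤ t) (h0 : u0 + v0 ≤ K) {u v : ℝ} (hu : 0 ≤ u) (hv : 0 ≤ v) :
    mixh p K u0 u + mixh r K v0 v ≤ Real.log (1 + (u + v)) := by
  have huv : 0 ≤ u + v := add_nonneg hu hv
  have h1 : mixh p K u0 u + mixh r K v0 v ≤ mixh id K K (u + v) := by
    unfold mixh
    have a1 : (∫ t in (0 : ℝ)..K, min u (p t) / (1 + t) ^ 2)
        + (∫ t in (0 : ℝ)..K, min v (r t) / (1 + t) ^ 2)
        ≤ ∫ t in (0 : ℝ)..K, min (u + v) (id t) / (1 + t) ^ 2 := by
      rw [← intervalIntegral.integral_add (min_int hp u le_rfl hK) (min_int hr v le_rfl hK)]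
      refine intervalIntegral.integral_mono_on hK ((min_int hp u le_rfl hK).add
        (min_int hr v le_rfl hK)) (min_int monotone_id _ le_rfl hK) fun t ht => ?_
      rw [← add_div]
      refine div_le_div_of_nonneg_right (le_min ?_ ?_) (by positivity)
      · exact add_le_add (min_le_left _ _) (min_le_left _ _)
      · exact (add_le_add (min_le_right _ _) (min_le_right _ _)).trans (hpr t ht.1)
    have a2 : min u u0 / (1 + K) + min v v0 / (1 + K) ≤ min (u + v) K / (1 + K) := by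
      rw [← add_div]
      refine div_le_div_of_nonneg_right (le_min ?_ ?_) (by positivity)
      · exact add_le_add (min_le_left _ _) (min_le_left _ _)
      · exact (add_le_add (min_le_right _ _) (min_le_right _ _)).trans h0
    linarith
  rw [mixh_id huv hK] at h1
  refine h1.trans (Real.log_le_log (by linarith [le_min huv hK]) ?_)
  linarith [min_le_left (u + v) K]

lemma mixh_pair_ge {p r : ℝ → ℝ} (hp : Monotone p) (hr : Monotone r) {K u0 v0 : ℝ} (hK : 0 ≤ K)
    {u v : ℝ} (hu : 0 ≤ u) (hv : 0 ≤ v) (hu0 : u ≤ u0) (hv0 : v ≤ v0) (huv : u + v ≤ K)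
    (hpr : ∀ t, 0 ≤ t → min (u + v) t ≤ min u (p t) + min v (r t)) :
    Real.log (1 + (u + v)) ≤ mixh p K u0 u + mixh r K v0 v := by
  have huv0 : 0 ≤ u + v := add_nonneg hu hv
  have h1 := mixh_id huv0 hK
  rw [min_eq_left huv] at h1
  rw [← h1]
  unfold mixh
  have a1 : (∫ t in (0 : ℝ)..K, min (u + v) (id t) / (1 + t) ^ 2)
      ≤ (∫ t in (0 : ℝ)..K, min u (p t) / (1 + t) ^ 2)
        + (∫ t in (0 : ℝ)..K, min v (r t) / (1 + t) ^ 2) := by
    rw [← intervalIntegral.integral_add (min_int hp u le_rfl hK) (min_int hr v le_rfl hK)]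
    refine intervalIntegral.integral_mono_on hK (min_int monotone_id _ le_rfl hK)
      ((min_int hp u le_rfl hK).add (min_int hr v le_rfl hK)) fun t ht => ?_
    rw [← add_div]
    exact div_le_div_of_nonneg_right (hpr t ht.1) (by positivity)
  rw [min_eq_left huv, min_eq_left hu0, min_eq_left hv0, add_div]
  linarith

lemma mixh_ge {p : ℝ → ℝ} (hp : Monotone p) (hp0 : ∀ t, 0 ≤ p t) {K u0 k y : ℝ} (hk : 0 ≤ k)
    (hkK : k ≤ K) (hy : 0 ≤ y) (hyu : y ≤ u0) (hyp : y ≤ p k) :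
    y / (1 + k) ≤ mixh p K u0 y := by
  unfold mixh
  rw [← intervalIntegral.integral_add_adjacent_intervals (b := k)
    (min_int hp y le_rfl hk) (min_int hp y hk hkK), min_eq_left hyu]
  have a1 : 0 ≤ ∫ t in (0 : ℝ)..k, min y (p t) / (1 + t) ^ 2 :=
    intervalIntegral.integral_nonneg hk fun t _ =>
      div_nonneg (le_min hy (hp0 t)) (by positivity)
  have a2 : ∫ t in k..K, min y (p t) / (1 + t) ^ 2 = ∫ t in k..K, y / (1 + t) ^ 2 := by
    refine intervalIntegral.integral_congr fun t ht => ?_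
    rw [uIcc_of_le hkK] at ht
    rw [min_eq_left (hyp.trans (hp ht.1))]
  rw [a2, integral_w y hk hkK]
  linarith

/-- The coordinate function of the monotone curve, as a function of the total. -/
noncomputable def csup (u κ : ℝ → ℝ) (l0 y : ℝ) : ℝ := sSup (u '' {l | l0 ≤ l ∧ κ l ≤ y})

section curve

variable {u κ : ℝ → ℝ} {l0 : ℝ} (hu0 : ∀ l, l0 ≤ l → 0 ≤ u l) (hu1 : ∀ l, l0 ≤ l → u l ≤ u l0)
include hu0 hu1

omit hu0 in
lemma csup_bdd (y : ℝ) : BddAbove (u '' {l | l0 ≤ l ∧ κ l ≤ y}) :=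
  ⟨u l0, by rintro _ ⟨l, hl, rfl⟩; exact hu1 l hl.1⟩

omit hu1 in
lemma csup_nonneg (y : ℝ) : 0 ≤ csup u κ l0 y :=
  Real.sSup_nonneg (by rintro _ ⟨l, hl, rfl⟩; exact hu0 l hl.1)

lemma csup_le (y : ℝ) : csup u κ l0 y ≤ u l0 :=
  Real.sSup_le (by rintro _ ⟨l, hl, rfl⟩; exact hu1 l hl.1) (hu0 l0 le_rfl)

omit hu0 in
lemma le_csup {y l : ℝ} (hl : l0 ≤ l) (hy : κ l ≤ y) : u l ≤ csup u κ l0 y :=
  le_csSup (csup_bdd hu1 y) ⟨l, ⟨hl, hy⟩, rfl⟩

lemma csup_mono : Monotone (csup u κ l0) := by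
  intro y y' h
  refine Real.sSup_le ?_ (csup_nonneg hu0 y')
  rintro _ ⟨l, hl, rfl⟩
  exact le_csup hu1 hl.1 (hl.2.trans h)

end curve

lemma csup_add_le {u v : ℝ → ℝ} {l0 : ℝ} (hu : AntitoneOn u (Ici l0)) (hv : AntitoneOn v (Ici l0))
    {y : ℝ} (hy : 0 ≤ y) :
    csup u (fun l => u l + v l) l0 y + csup v (fun l => u l + v l) l0 y ≤ y := by
  unfold csup
  rcases eq_empty_or_nonempty {l | l0 ≤ l ∧ u l + v l ≤ y} with h | h
  · simp [h, hy]
  · have h1 : ∀ l1 ∈ {l | l0 ≤ l ∧ u l + v l ≤ y}, ∀ l2 ∈ {l | l0 ≤ l ∧ u l + v l ≤ y},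
        u l1 + v l2 ≤ y := by
      intro l1 h1 l2 h2
      rcases le_total l1 l2 with h3 | h3
      · linarith [hv h1.1 h2.1 h3, h1.2]
      · linarith [hu h2.1 h1.1 h3, h2.2]
    have h2 : ∀ l2 ∈ {l | l0 ≤ l ∧ u l + v l ≤ y},
        sSup (u '' {l | l0 ≤ l ∧ u l + v l ≤ y}) ≤ y - v l2 := by
      intro l2 h2
      refine csSup_le (h.image _) ?_
      rintro _ ⟨l1, hl1, rfl⟩
      linarith [h1 l1 hl1 l2 h2]
    have h3 : sSup (v '' {l | l0 ≤ l ∧ u l + v l ≤ y})
        ≤ y - sSup (u '' {l | l0 ≤ l ∧ u l + v l ≤ y}) := by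
      refine csSup_le (h.image _) ?_
      rintro _ ⟨l2, hl2, rfl⟩
      linarith [h2 l2 hl2]
    linarith

/-- The two concave functions attached to the curve `(a / (l + b), c / (l + f))`. -/
lemma exists_pair {a b c f l0 : ℝ} (ha : 0 ≤ a) (hb : 0 ≤ b) (hc : 0 ≤ c) (hf : 0 ≤ f)
    (hl : 0 < l0) : ∃ h1 h2 : ℝ → ℝ,
    (Monotone h1 ∧ h1 0 = 0 ∧ (∀ y y', y' ≤ y → h1 y - h1 y' ≤ y - y') ∧
      (∀ y, h1 y ≤ h1 (a / (l0 + b))) ∧ ConcaveOn ℝ univ h1 ∧
      ∀ l, l0 ≤ l → ∀ y, 0 ≤ y → y ≤ a / (l + b) → y / (1 + (a / (l + b) + c / (l + f))) ≤ h1 y) ∧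
    (Monotone h2 ∧ h2 0 = 0 ∧ (∀ y y', y' ≤ y → h2 y - h2 y' ≤ y - y') ∧
      (∀ y, h2 y ≤ h2 (c / (l0 + f))) ∧ ConcaveOn ℝ univ h2 ∧
      ∀ l, l0 ≤ l → ∀ y, 0 ≤ y → y ≤ c / (l + f) → y / (1 + (a / (l + b) + c / (l + f))) ≤ h2 y) ∧
    (∀ u v, 0 ≤ u → 0 ≤ v → h1 u + h2 v ≤ Real.log (1 + (u + v))) ∧
    (∀ l, l0 ≤ l → Real.log (1 + (a / (l + b) + c / (l + f)))
      ≤ h1 (a / (l + b)) + h2 (c / (l + f))) := by
  set u : ℝ → ℝ := fun l => a / (l + b) with hu
  set v : ℝ → ℝ := fun l => c / (l + f) with hv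
  set κ : ℝ → ℝ := fun l => u l + v l with hκ
  have ua : AntitoneOn u (Ici l0) := fun l1 h1 l2 _ h =>
    div_le_div_of_nonneg_left ha (by linarith [mem_Ici.mp h1]) (by linarith)
  have va : AntitoneOn v (Ici l0) := fun l1 h1 l2 _ h =>
    div_le_div_of_nonneg_left hc (by linarith [mem_Ici.mp h1]) (by linarith)
  have u0 : ∀ l, l0 ≤ l → 0 ≤ u l := fun l h => div_nonneg ha (by linarith)
  have v0 : ∀ l, l0 ≤ l → 0 ≤ v l := fun l h => div_nonneg hc (by linarith)
  have u1 : ∀ l, l0 ≤ l → u l ≤ u l0 := fun l h => ua self_mem_Ici h h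
  have v1 : ∀ l, l0 ≤ l → v l ≤ v l0 := fun l h => va self_mem_Ici h h
  have κ0 : ∀ l, l0 ≤ l → 0 ≤ κ l := fun l h => add_nonneg (u0 l h) (v0 l h)
  have κ1 : ∀ l, l0 ≤ l → κ l ≤ κ l0 := fun l h => add_le_add (u1 l h) (v1 l h)
  have hK := κ0 l0 le_rfl
  set p := csup u κ l0
  set r := csup v κ l0
  have pm : Monotone p := csup_mono u0 u1
  have rm : Monotone r := csup_mono v0 v1
  refine ⟨mixh p (κ l0) (u l0), mixh r (κ l0) (v l0),
    ⟨mixh_mono pm hK _, mixh_zero (csup_nonneg u0) _ (u0 l0 le_rfl), mixh_lip pm hK _,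
      mixh_le pm hK (csup_le u0 u1), mixh_concave pm hK _, fun l hl y hy hyu => ?_⟩,
    ⟨mixh_mono rm hK _, mixh_zero (csup_nonneg v0) _ (v0 l0 le_rfl), mixh_lip rm hK _,
      mixh_le rm hK (csup_le v0 v1), mixh_concave rm hK _, fun l hl y hy hyu => ?_⟩,
    fun x y hx hy => mixh_pair_le pm rm hK (fun t ht => csup_add_le ua va ht) le_rfl hx hy,
    fun l hl' => ?_⟩
  · exact mixh_ge pm (csup_nonneg u0) (κ0 l hl) (κ1 l hl) hy (hyu.trans (u1 l hl))
      (hyu.trans (le_csup u1 hl le_rfl))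
  · exact mixh_ge rm (csup_nonneg v0) (κ0 l hl) (κ1 l hl) hy (hyu.trans (v1 l hl))
      (hyu.trans (le_csup v1 hl le_rfl))
  · refine mixh_pair_ge pm rm hK (u0 l hl') (v0 l hl') (u1 l hl') (v1 l hl') (κ1 l hl')
      fun t ht => ?_
    change min (κ l) t ≤ min (u l) (p t) + min (v l) (r t)
    rcases le_or_gt (κ l) t with h | h
    · rw [min_eq_left h, min_eq_left (le_csup u1 hl' h), min_eq_left (le_csup v1 hl' h)]
    · rw [min_eq_right h.le]
      rcases ht.eq_or_lt with h0 | h0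
      · rw [← h0]
        exact add_nonneg (le_min (u0 l hl') (csup_nonneg u0 _))
          (le_min (v0 l hl') (csup_nonneg v0 _))
      · set L := l + (a + c) / t with hL
        have hlL : l ≤ L := by rw [hL]; linarith [div_nonneg (add_nonneg ha hc) h0.le]
        have hlpos : 0 < l := hl.trans_le hl'
        have hκL : κ L ≤ t := by
          have hLp : 0 < L := hlpos.trans_le hlL
          have e1 : u L ≤ a / L := div_le_div_of_nonneg_left ha hLp (by linarith)
          have e2 : v L ≤ c / L := div_le_div_of_nonneg_left hc hLp (by linarith)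
          have e3 : (a + c) / L ≤ t := by
            rw [div_le_iff₀ hLp, hL, mul_add, mul_div_cancel₀ _ h0.ne']
            nlinarith
          rw [add_div] at e3
          change u L + v L ≤ t
          linarith
        have hcont : ContinuousOn κ (Icc l L) := by
          refine ContinuousOn.add (continuousOn_const.div (by fun_prop) fun x hx => ?_)
            (continuousOn_const.div (by fun_prop) fun x hx => ?_)
          · linarith [hx.1]
          · linarith [hx.1]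
        obtain ⟨x, hx, hxt⟩ := intermediate_value_Icc' hlL hcont ⟨hκL, h.le⟩
        have hx0 : l0 ≤ x := hl'.trans hx.1
        have e1 : u x ≤ min (u l) (p t) := le_min (ua hl' hx0 hx.1) (le_csup u1 hx0 hxt.le)
        have e2 : v x ≤ min (v l) (r t) := le_min (va hl' hx0 hx.1) (le_csup v1 hx0 hxt.le)
        have e3 : u x + v x = t := hxt
        linarith

end Vale.Agent.P358
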