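import Vale.Agent.P358.Det

set_option linter.unusedSectionVars false

namespace Vale.Agent.P358

open Matrix MeasureTheory Set
open scoped ComplexOrder

variable {n m E : Type} [Fintype n] [DecidableEq n] [Fintype m] [DecidableEq m]
  [Fintype E] [DecidableEq E]

lemma intInt_of_bound {f : ℝ → ℝ} (hf : Measurable f) {a b : ℝ} (hab : a ≤ b) (C : ℝ)
    (hb : ∀ s ∈ Ioc a b, |f s| ≤ C) : IntervalIntegrable f volume a b := by
  rw [intervalIntegrable_iff_integrableOn_Ioc_of_le hab]
  refine Measure.integrableOn_of_bounded (M := C) (by simp) hf.aestronglyMeasurable ?_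
  refine (ae_restrict_iff' measurableSet_Ioc).mpr (Filter.Eventually.of_forall ?_)
  intro s hs
  exact hb s hs

lemma intInt_sum {ι : Type} (t : Finset ι) {f : ι → ℝ → ℝ} {a b : ℝ}
    (h : ∀ i ∈ t, IntervalIntegrable (f i) volume a b) :
    IntervalIntegrable (fun s => ∑ i ∈ t, f i s) volume a b := by
  have := IntervalIntegrable.sum t h
  have e : (∑ i ∈ t, f i) = fun s => ∑ i ∈ t, f i s := by
    ext s; simp
  rwa [e] at this

/-- Indicator of `s < y`. -/
noncomputable def ind (y s : ℝ) : ℝ := if s < y then 1 else 0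

lemma ind_meas (y : ℝ) : Measurable (ind y) :=
  Measurable.ite measurableSet_Iio measurable_const measurable_const

lemma ind_int (y : ℝ) {R : ℝ} (hR : 0 ≤ R) : IntervalIntegrable (ind y) volume 0 R :=
  intInt_of_bound (ind_meas y) hR 1 (fun s _ => by unfold ind; split_ifs <;> simp)

lemma integral_ind (y : ℝ) {R : ℝ} (hR : 0 ≤ R) :
    ∫ s in (0 : ℝ)..R, ind y s = max 0 (min y R) := by
  rcases le_total y 0 with hy | hy
  · rw [max_eq_left (min_le_of_left_le hy)]
    rw [intervalIntegral.integral_congr (g := fun _ => 0)]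
    · simp
    · intro s hs
      rw [uIcc_of_le hR] at hs
      simp [ind, not_lt.mpr (hy.trans hs.1)]
  · set t := min y R with ht
    have ht0 : 0 ≤ t := le_min hy hR
    have htR : t ≤ R := min_le_right _ _
    rw [max_eq_right ht0]
    have i1 : IntervalIntegrable (ind y) volume 0 t := ind_int y ht0
    have i2 : IntervalIntegrable (ind y) volume t R := i1.symm.trans (ind_int y hR)
    rw [← intervalIntegral.integral_add_adjacent_intervals i1 i2]
    have e1 : ∫ s in (0 : ℝ)..t, ind y s = ∫ s in (0 : ℝ)..t, (1 : ℝ) := by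
      rw [intervalIntegral.integral_of_le ht0, intervalIntegral.integral_of_le ht0,
        integral_Ioc_eq_integral_Ioo, integral_Ioc_eq_integral_Ioo]
      refine setIntegral_congr_fun measurableSet_Ioo fun s hs => ?_
      simp [ind, hs.2.trans_le (min_le_left _ _)]
    have e2 : ∫ s in t..R, ind y s = ∫ s in t..R, (0 : ℝ) := by
      rw [intervalIntegral.integral_of_le htR, intervalIntegral.integral_of_le htR,
        integral_Ioc_eq_integral_Ioo, integral_Ioc_eq_integral_Ioo]
      refine setIntegral_congr_fun measurableSet_Ioo fun s hs => ?_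
      have : ¬ s < y := by
        intro h
        exact absurd hs.1 (not_lt.mpr (le_min h.le hs.2.le))
      simp [ind, this]
    rw [e1, e2]; simp

/-- Step function below `h`. -/
noncomputable def stepf (h : ℝ → ℝ) (ε : ℝ) (K : ℕ) (y : ℝ) : ℝ :=
  ∑ k ∈ Finset.range K, (h ((k + 1) * ε) - h (k * ε)) * ind y ((k + 1) * ε)

lemma stepf_le {h : ℝ → ℝ} (hm : Monotone h) (h0 : h 0 = 0) {ε : ℝ} (hε : 0 < ε) (K : ℕ)
    {y : ℝ} (hy : 0 ≤ y) : stepf h ε K y ≤ h (min y (K * ε)) := by
  induction K with
  | zero => simp [stepf, min_eq_right hy, h0]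
  | succ K ih =>
    rw [stepf, Finset.sum_range_succ, ← stepf]
    push_cast
    by_cases hc : ((K : ℝ) + 1) * ε < y
    · have : min y ((K : ℝ) * ε) = K * ε := min_eq_right (by nlinarith)
      rw [this] at ih
      rw [min_eq_right hc.le]
      simp only [ind, hc, if_true]
      linarith
    · simp only [ind, hc, if_false, mul_zero, add_zero]
      exact ih.trans (hm (min_le_min_left _ (by nlinarith)))

lemma sum_steps (h : ℝ → ℝ) (h0 : h 0 = 0) (ε : ℝ) (K : ℕ) :
    ∑ k ∈ Finset.range K, (h ((k + 1) * ε) - h (k * ε)) = h (K * ε) := by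
  induction K with
  | zero => simp [h0]
  | succ K ih => rw [Finset.sum_range_succ, ih]; push_cast; ring

lemma stepf_full {h : ℝ → ℝ} (h0 : h 0 = 0) {ε : ℝ} (hε : 0 < ε) (K : ℕ)
    {y : ℝ} (hy : K * ε < y) : stepf h ε K y = h (K * ε) := by
  rw [← sum_steps h h0 ε K, stepf]
  refine Finset.sum_congr rfl fun k hk => ?_
  have hk' : (k : ℝ) + 1 ≤ K := by exact_mod_cast Finset.mem_range.mp hk
  have : ((k : ℝ) + 1) * ε < y := lt_of_le_of_lt (by nlinarith) hy
  simp [ind, this]

lemma le_stepf {h : ℝ → ℝ} (hm : Monotone h) (h0 : h 0 = 0)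
    (hl : ∀ y y', y' ≤ y → h y - h y' ≤ y - y') {ε : ℝ} (hε : 0 < ε) (K : ℕ) (y : ℝ) :
    h (min y (K * ε)) ≤ stepf h ε K y + ε := by
  induction K with
  | zero =>
    simp only [stepf, Finset.range_zero, Finset.sum_empty, Nat.cast_zero, zero_mul, zero_add]
    have : h (min y 0) ≤ h 0 := hm (min_le_right _ _)
    linarith
  | succ K ih =>
    push_cast
    by_cases hc : ((K : ℝ) + 1) * ε < y
    · rw [stepf_full h0 hε (K + 1) (by push_cast; exact hc), min_eq_right hc.le]
      push_cast; linarith
    · have e : stepf h ε (K + 1) y = stepf h ε K y := by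
        rw [stepf, Finset.sum_range_succ, ← stepf]; simp [ind, hc]
      rw [e, min_eq_left (not_lt.mp hc)]
      by_cases hd : (K : ℝ) * ε < y
      · rw [stepf_full h0 hε K hd]
        have := hl y (K * ε) hd.le
        have h3 := not_lt.mp hc
        linarith
      · rwa [min_eq_left (not_lt.mp hd)] at ih

lemma concaveOn_min (R : ℝ) : ConcaveOn ℝ univ (fun y : ℝ => min y R) :=
  (concaveOn_id convex_univ).inf (concaveOn_const R convex_univ)

lemma sum_min_Yx {P : Matrix n n ℂ} (hP : P.PosSemidef) (A : Matrix n E ℂ) (x : ℝ)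
    (R : ℝ) :
    ∑ i, min ((posSemidef_self_mul_conjTranspose A).1.eigenvalues i / x) R - P.trace.re
      ≤ ∑ i, min ((Yx_herm x hP A).eigenvalues i) R := by
  set V := evU (Yx_herm x hP A)
  have hX := posSemidef_self_mul_conjTranspose A
  have hc : ConcaveOn ℝ univ (fun y : ℝ => min (y / x) R) := by
    have h1 : ConcaveOn ℝ univ (fun y : ℝ => y / x) := by
      refine ⟨convex_univ, fun a _ b _ s t _ _ _ => ?_⟩
      simp only [smul_eq_mul]
      apply le_of_eq; ring
    exact h1.inf (concaveOn_const R convex_univ)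
  have h1 := pinch hc hX.1 (fun _ => mem_univ _) V (evU_star_mul _)
  rw [trf_eq _ hX.1] at h1
  rw [← sum_dg V (evU_mul_star _) P]
  have h2 : ∀ i, min (dg V (A * Aᴴ) i / x) R - dg V P i
      ≤ min ((Yx_herm x hP A).eigenvalues i) R := by
    intro i
    rw [← dg_evU (Yx_herm x hP A) i]
    change _ ≤ min (dg V (Yx x P A) i) R
    rw [Yx, dg_sub, dg_smul]
    have := dg_nonneg V hP i
    apply le_min
    · have := min_le_left (dg V (A * Aᴴ) i / x) R
      rw [div_eq_inv_mul] at this ⊢
      linarith
    · have := min_le_right (dg V (A * Aᴴ) i / x) R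
      linarith
  calc _ ≤ ∑ i, min (dg V (A * Aᴴ) i / x) R - ∑ i, dg V P i := by linarith
    _ = ∑ i, (min (dg V (A * Aᴴ) i / x) R - dg V P i) := by rw [Finset.sum_sub_distrib]
    _ ≤ _ := Finset.sum_le_sum fun i _ => h2 i

lemma hdiv_int {h : ℝ → ℝ} (hm : Monotone h) (h0 : h 0 = 0) {M : ℝ} (hM : ∀ y, h y ≤ M)
    {x : ℝ} (hx : 0 ≤ x) {a b : ℝ} (ha : 0 ≤ a) (hab : a ≤ b) :
    IntervalIntegrable (fun s => h (x / s)) volume a b := by
  refine intInt_of_bound (f := fun s => h (x / s)) (hm.measurable.comp (measurable_const.div measurable_id)) hab M ?_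
  intro s hs
  have : 0 ≤ h (x / s) := h0 ▸ hm (div_nonneg hx (ha.trans hs.1.le))
  rw [abs_of_nonneg this]
  exact hM _

/-- The integrated perturbation bound. -/
lemma lemK {h : ℝ → ℝ} (hm : Monotone h) (h0 : h 0 = 0)
    (hl : ∀ y y', y' ≤ y → h y - h y' ≤ y - y') {u0 : ℝ} (hu : ∀ y, h y ≤ h u0)
    {P : Matrix n n ℂ} (hP : P.PosSemidef) (A : Matrix n E ℂ) {R δ : ℝ} (hR : 0 < R)
    (hδ : 0 < δ) :
    ∃ σ : ℝ → ℝ, IntervalIntegrable σ volume 0 R ∧
      (∀ s, 0 < s → σ s ≤ trf h (Us s P A)) ∧
      ∑ i, (∫ s in (0 : ℝ)..R, h ((posSemidef_self_mul_conjTranspose A).1.eigenvalues i / s))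
        - h u0 * P.trace.re - δ ≤ ∫ s in (0 : ℝ)..R, σ s := by
  have hX := posSemidef_self_mul_conjTranspose A
  set d : ℝ := (Fintype.card n : ℝ) with hd
  have hd0 : 0 ≤ d := Nat.cast_nonneg _
  set ε := δ / (d * R + 1) with hε
  have hε0 : 0 < ε := div_pos hδ (by positivity)
  have hεδ : d * (ε * R) ≤ δ := by
    have : ε * (d * R + 1) = δ := by rw [hε]; field_simp
    nlinarith
  obtain ⟨K, hK⟩ := exists_nat_ge (u0 / ε)
  have hK' : u0 ≤ K * ε := by rwa [div_le_iff₀ hε0] at hK
  set c : ℕ → ℝ := fun k => h ((k + 1) * ε) - h (k * ε) with hc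
  have hc0 : ∀ k, 0 ≤ c k := fun k => sub_nonneg.mpr (hm (by nlinarith))
  have hxk : ∀ k : ℕ, 0 < ((k : ℝ) + 1) * ε := fun k => by positivity
  refine ⟨fun s => ∑ k ∈ Finset.range K, c k *
    ∑ i, ind ((Yx_herm (((k : ℝ) + 1) * ε) hP A).eigenvalues i) s, ?_, ?_, ?_⟩
  · exact intInt_sum _ fun k _ => IntervalIntegrable.const_mul
      (intInt_sum _ fun i _ => ind_int _ hR.le) _
  · intro s hs
    have hU := Us_psd hP hs A
    rw [trf_eq _ hU.1]
    calc ∑ k ∈ Finset.range K, c k *
          ∑ i, ind ((Yx_herm (((k : ℝ) + 1) * ε) hP A).eigenvalues i) s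
        ≤ ∑ k ∈ Finset.range K, c k * ∑ j, ind (hU.1.eigenvalues j) (((k : ℝ) + 1) * ε) := by
          refine Finset.sum_le_sum fun k _ => mul_le_mul_of_nonneg_left ?_ (hc0 k)
          have := count_Us hP hs (hxk k) A
          simp only [ind, Finset.sum_boole]
          exact_mod_cast this
      _ = ∑ j, stepf h ε K (hU.1.eigenvalues j) := by
          simp_rw [Finset.mul_sum]
          rw [Finset.sum_comm]
          rfl
      _ ≤ ∑ j, h (hU.1.eigenvalues j) := Finset.sum_le_sum fun j _ =>
          (stepf_le hm h0 hε0 K (hU.eigenvalues_nonneg j)).trans (hm (min_le_left _ _))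
  · have e1 : (∫ s in (0 : ℝ)..R, ∑ k ∈ Finset.range K, c k *
          ∑ i, ind ((Yx_herm (((k : ℝ) + 1) * ε) hP A).eigenvalues i) s)
        = ∑ k ∈ Finset.range K, c k *
          ∑ i, max 0 (min ((Yx_herm (((k : ℝ) + 1) * ε) hP A).eigenvalues i) R) := by
      rw [intervalIntegral.integral_finsetSum]
      · refine Finset.sum_congr rfl fun k _ => ?_
        rw [intervalIntegral.integral_const_mul, intervalIntegral.integral_finsetSum
          (fun i _ => ind_int _ hR.le)]
        simp_rw [integral_ind _ hR.le]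
      · intro k _
        exact IntervalIntegrable.const_mul (intInt_sum _ fun i _ => ind_int _ hR.le) _
    have e2 : ∀ x : ℝ, 0 ≤ x → (∫ s in (0 : ℝ)..R, h (x / s))
        ≤ ∑ k ∈ Finset.range K, c k * min (x / (((k : ℝ) + 1) * ε)) R + ε * R := by
      intro x hx
      have i1 : IntervalIntegrable (fun s => ∑ k ∈ Finset.range K,
          c k * ind (x / (((k : ℝ) + 1) * ε)) s) volume 0 R :=
        intInt_sum _ fun k _ => (ind_int (x / (((k : ℝ) + 1) * ε)) hR.le).const_mul (c k)
      calc (∫ s in (0 : ℝ)..R, h (x / s))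
          ≤ ∫ s in (0 : ℝ)..R, (∑ k ∈ Finset.range K,
            c k * ind (x / (((k : ℝ) + 1) * ε)) s + ε) := by
            refine intervalIntegral.integral_mono_on_of_le_Ioo hR.le
              (hdiv_int hm h0 hu hx le_rfl hR.le) (i1.add intervalIntegrable_const) ?_
            intro s hs
            have h1 := le_stepf hm h0 hl hε0 K (x / s)
            have h2 : h (x / s) ≤ h (min (x / s) (K * ε)) := by
              rcases le_total (x / s) (K * ε) with h3 | h3
              · rw [min_eq_left h3]
              · rw [min_eq_right h3]; exact (hu _).trans (hm hK')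
            have h3 : stepf h ε K (x / s)
                = ∑ k ∈ Finset.range K, c k * ind (x / (((k : ℝ) + 1) * ε)) s := by
              refine Finset.sum_congr rfl fun k _ => ?_
              congr 1
              have : ((k : ℝ) + 1) * ε < x / s ↔ s < x / (((k : ℝ) + 1) * ε) := by
                rw [lt_div_iff₀ hs.1, lt_div_iff₀ (hxk k), mul_comm]
              simp only [ind, this]
            linarith
        _ = _ := by
            rw [intervalIntegral.integral_add i1 intervalIntegrable_const,
              intervalIntegral.integral_finsetSum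
                (fun k _ => (ind_int _ hR.le).const_mul (c k))]
            simp only [intervalIntegral.integral_const_mul, integral_ind _ hR.le,
              intervalIntegral.integral_const, sub_zero, smul_eq_mul]
            congr 1
            · refine Finset.sum_congr rfl fun k _ => ?_
              rw [max_eq_right (le_min (div_nonneg hx (hxk k).le) hR.le)]
            · ring
    rw [e1]
    have hb : 0 ≤ P.trace.re := (Complex.nonneg_iff.mp hP.trace_nonneg).1
    have e3 : ∑ k ∈ Finset.range K, c k = h (K * ε) := sum_steps h h0 ε K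
    calc ∑ i, (∫ s in (0 : ℝ)..R, h (hX.1.eigenvalues i / s)) - h u0 * P.trace.re - δ
        ≤ ∑ i, (∑ k ∈ Finset.range K,
            c k * min (hX.1.eigenvalues i / (((k : ℝ) + 1) * ε)) R + ε * R)
            - h (K * ε) * P.trace.re - d * (ε * R) := by
          have := Finset.sum_le_sum (s := Finset.univ)
            fun i _ => e2 (hX.1.eigenvalues i) (hX.eigenvalues_nonneg i)
          have h4 := mul_le_mul_of_nonneg_right (hu (K * ε)) hb
          linarith
      _ = ∑ k ∈ Finset.range K, c k *
            (∑ i, min (hX.1.eigenvalues i / (((k : ℝ) + 1) * ε)) R - P.trace.re) := by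
          rw [Finset.sum_add_distrib, Finset.sum_comm, ← e3]
          simp only [mul_sub, Finset.sum_sub_distrib, Finset.mul_sum, Finset.sum_mul,
            Finset.sum_const, Finset.card_univ, nsmul_eq_mul, hd]
          ring
      _ ≤ _ := by
          refine Finset.sum_le_sum fun k _ => mul_le_mul_of_nonneg_left ?_ (hc0 k)
          exact (sum_min_Yx hP A _ R).trans
            (Finset.sum_le_sum fun i _ => le_max_right _ _)

end Vale.Agent.P358
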