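import Vale.Agent.P358.Defs
import Vale.Agent.P358.Key

set_option linter.unusedSectionVars false

namespace Vale.Agent.P358

open Matrix Set
open Real (negMulLog binEntropy)
open scoped ComplexOrder

/-- Index type of `n` qubits. -/
abbrev Qb (n : ℕ) := Fin n → Fin 2

/-- Splitting off the first qubit. -/
def eqv (n : ℕ) : Qb n ⊕ Qb n ≃ Qb (n + 1) where
  toFun := Sum.elim (fun I => Fin.cons 0 I) (fun I => Fin.cons 1 I)
  invFun J := if J 0 = 0 then Sum.inl (Fin.tail J) else Sum.inr (Fin.tail J)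
  left_inv := by
    rintro (I | I) <;> simp
  right_inv := by
    intro J
    by_cases h : J 0 = 0
    · simp only [h, if_true, Sum.elim_inl]
      rw [← h]; exact Fin.cons_self_tail J
    · have h1 : J 0 = 1 := by omega
      simp only [h, if_false, Sum.elim_inr]
      rw [← h1]; exact Fin.cons_self_tail J

lemma sum_Qb {M : Type} [AddCommMonoid M] {n : ℕ} (f : Qb (n + 1) → M) :
    ∑ J, f J = ∑ I : Qb n, f (Fin.cons 0 I) + ∑ I : Qb n, f (Fin.cons 1 I) := by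
  rw [← (eqv n).sum_comp, Fintype.sum_sum_type]
  rfl

/-- Blocks with respect to the first qubit. -/
def sub {n : ℕ} (k l : Fin 2) (ρ : Matrix (Qb (n + 1)) (Qb (n + 1)) ℂ) : Matrix (Qb n) (Qb n) ℂ :=
  ρ.submatrix (fun I => Fin.cons k I) (fun I => Fin.cons l I)

lemma submatrix_eqv {n : ℕ} (ρ : Matrix (Qb (n + 1)) (Qb (n + 1)) ℂ) :
    ρ.submatrix (eqv n) (eqv n) = fromBlocks (sub 0 0 ρ) (sub 0 1 ρ) (sub 1 0 ρ) (sub 1 1 ρ) := by
  ext (I | I) (J | J) <;> rfl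

lemma tensorPow_succ (N : Matrix (Fin 2) (Fin 2) ℂ → Matrix (Fin 2) (Fin 2) ℂ) {n : ℕ}
    (ρ : Matrix (Qb (n + 1)) (Qb (n + 1)) ℂ) (i j : Fin 2) :
    sub i j (tensorPow N (n + 1) ρ)
      = N (single 0 0 1) i j • tensorPow N n (sub 0 0 ρ)
        + N (single 0 1 1) i j • tensorPow N n (sub 0 1 ρ)
        + N (single 1 0 1) i j • tensorPow N n (sub 1 0 ρ)
        + N (single 1 1 1) i j • tensorPow N n (sub 1 1 ρ) := by
  ext I J
  simp only [sub, tensorPow, submatrix_apply, of_apply, Matrix.add_apply, Matrix.smul_apply,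
    smul_eq_mul, sum_Qb, Fin.prod_univ_succ, Fin.cons_zero, Fin.cons_succ,
    Finset.sum_add_distrib, Finset.mul_sum]
  simp only [mul_left_comm]
  ring

section gad
variable (γ ν : ℝ)

lemma gad_blocks {n : ℕ} (ρ : Matrix (Qb (n + 1)) (Qb (n + 1)) ℂ) :
    (tensorPow (gad γ ν) (n + 1) ρ).submatrix (eqv n) (eqv n)
      = chanBlk (γ * ν) (γ * (1 - ν)) (√(1 - γ))
        (tensorPow (gad γ ν) n (sub 0 0 ρ)) (tensorPow (gad γ ν) n (sub 0 1 ρ))
        (tensorPow (gad γ ν) n (sub 1 0 ρ)) (tensorPow (gad γ ν) n (sub 1 1 ρ)) := by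
  rw [submatrix_eqv, chanBlk]
  simp only [tensorPow_succ]
  congr 1 <;> simp [gad]
  · module
  · module

/-- Kraus operators. -/
noncomputable def kr (α β : ℝ) : Fin 5 → Matrix (Fin 2) (Fin 2) ℝ :=
  ![!![α, 0; 0, β], !![√(1 - γ * ν - α ^ 2), 0; 0, 0], !![0, 0; 0, √(1 - γ * (1 - ν) - β ^ 2)],
    !![0, √(γ * (1 - ν)); 0, 0], !![0, 0; √(γ * ν), 0]]

variable {γ ν}

lemma exists_kraus (hγ : γ ∈ Icc (0 : ℝ) 1) (hν : ν ∈ Icc (0 : ℝ) 1) :
    ∃ K : Fin 5 → Matrix (Fin 2) (Fin 2) ℂ, ∀ k l i j,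
      gad γ ν (single k l 1) i j = ∑ a, K a i k * star (K a j l) := by
  have g0 := hγ.1
  have g1 := hγ.2
  have n0 := hν.1
  have n1 := hν.2
  obtain ⟨α, β, hαβ, hα, hβ⟩ := exists_split (c := √(1 - γ)) (x := 1 - γ * ν)
    (z := 1 - γ * (1 - ν)) (Real.sqrt_nonneg _) (by nlinarith) (by nlinarith) (by
      rw [Real.sq_sqrt (by linarith)]
      nlinarith [mul_nonneg (mul_nonneg (mul_nonneg g0 g0) n0) (sub_nonneg.mpr n1)])
  have e1 := Real.mul_self_sqrt (sub_nonneg.mpr hα)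
  have e2 := Real.mul_self_sqrt (sub_nonneg.mpr hβ)
  have e3 := Real.mul_self_sqrt (mul_nonneg g0 (sub_nonneg.mpr n1))
  have e4 := Real.mul_self_sqrt (mul_nonneg g0 n0)
  refine ⟨fun a i k => ((kr γ ν α β a i k : ℝ) : ℂ), fun k l i j => ?_⟩
  have : ∑ a, ((kr γ ν α β a i k : ℝ) : ℂ) * star ((kr γ ν α β a j l : ℝ) : ℂ)
      = ((∑ a, kr γ ν α β a i k * kr γ ν α β a j l : ℝ) : ℂ) := by
    simp
  rw [this]
  have h2 : ∑ a, kr γ ν α β a i k * kr γ ν α β a j l =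
      if k = l then (if i = j then
        (if i = 0 then (if k = 0 then 1 - γ * ν else γ * (1 - ν))
          else (if k = 0 then γ * ν else 1 - γ * (1 - ν))) else 0)
      else (if i = k ∧ j = l then √(1 - γ) else 0) := by
    rw [Fin.sum_univ_five]
    fin_cases k <;> fin_cases l <;> fin_cases i <;> fin_cases j <;> simp [kr] <;> linarith
  rw [h2]
  fin_cases k <;> fin_cases l <;> fin_cases i <;> fin_cases j <;> simp [gad] <;>
    ring

lemma tensor_kraus (hγ : γ ∈ Icc (0 : ℝ) 1) (hν : ν ∈ Icc (0 : ℝ) 1) (n : ℕ) :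
    ∃ K : (Fin n → Fin 5) → Matrix (Qb n) (Qb n) ℂ, ∀ ρ,
      tensorPow (gad γ ν) n ρ = ∑ a, K a * ρ * (K a)ᴴ := by
  obtain ⟨K, hK⟩ := exists_kraus hγ hν
  refine ⟨fun a => of fun I L => ∏ m, K (a m) (I m) (L m), fun ρ => ?_⟩
  ext I J
  simp only [tensorPow, of_apply, hK, Matrix.sum_apply, Matrix.mul_apply, conjTranspose_apply,
    Finset.prod_univ_sum, Fintype.piFinset_univ, Finset.mul_sum, Finset.sum_mul, star_prod,
    Finset.prod_mul_distrib]
  rw [Finset.sum_comm]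
  simp_rw [Finset.sum_comm (s := (Finset.univ : Finset (Qb n)))
    (t := (Finset.univ : Finset (Fin n → Fin 5)))]
  refine Finset.sum_congr rfl fun a _ => Finset.sum_congr rfl fun L _ =>
    Finset.sum_congr rfl fun M _ => ?_
  ring

lemma tensor_psd (hγ : γ ∈ Icc (0 : ℝ) 1) (hν : ν ∈ Icc (0 : ℝ) 1) {n : ℕ}
    {ρ : Matrix (Qb n) (Qb n) ℂ} (hρ : ρ.PosSemidef) : (tensorPow (gad γ ν) n ρ).PosSemidef := by
  obtain ⟨K, hK⟩ := tensor_kraus hγ hν n
  rw [hK]
  exact posSemidef_sum _ fun a _ => hρ.mul_mul_conjTranspose_same _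

lemma tensor_block_psd (hγ : γ ∈ Icc (0 : ℝ) 1) (hν : ν ∈ Icc (0 : ℝ) 1) {n : ℕ}
    {X Y Y' Z : Matrix (Qb n) (Qb n) ℂ} (hM : (fromBlocks X Y Y' Z).PosSemidef) :
    (fromBlocks (tensorPow (gad γ ν) n X) (tensorPow (gad γ ν) n Y)
      (tensorPow (gad γ ν) n Y') (tensorPow (gad γ ν) n Z)).PosSemidef := by
  obtain ⟨K, hK⟩ := tensor_kraus hγ hν n
  have h := posSemidef_sum (Finset.univ : Finset (Fin n → Fin 5))
    fun a _ => hM.mul_mul_conjTranspose_same (fromBlocks (K a) 0 0 (K a))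
  convert h using 1
  simp only [hK, fromBlocks_conjTranspose, fromBlocks_multiply, conjTranspose_zero,
    Matrix.zero_mul, Matrix.mul_zero, add_zero, zero_add]
  ext (I | I) (J | J) <;> simp [Matrix.sum_apply]

end gad

/-- Weight of the configurations whose `m`-th qubit is excited. -/
noncomputable def pop {n : ℕ} (m : Fin n) (p : Qb n → ℝ) : ℝ :=
  ∑ I, if I m = 1 then p I else 0

/-- The diagonal of a matrix. -/
def dgl {ι : Type} (ρ : Matrix ι ι ℂ) (I : ι) : ℝ := (ρ I I).re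

lemma tr_dgl {ι : Type} [Fintype ι] (ρ : Matrix ι ι ℂ) : ρ.trace.re = ∑ I, dgl ρ I := by
  simp [Matrix.trace, dgl]

lemma dgl_nonneg {ι : Type} {ρ : Matrix ι ι ℂ} (hρ : ρ.PosSemidef) (I : ι) : 0 ≤ dgl ρ I :=
  (Complex.nonneg_iff.mp hρ.diag_nonneg).1

lemma pop_nonneg {n : ℕ} (m : Fin n) {p : Qb n → ℝ} (hp : ∀ I, 0 ≤ p I) : 0 ≤ pop m p :=
  Finset.sum_nonneg fun I _ => by split_ifs <;> simp [hp I]

lemma pop_le {n : ℕ} (m : Fin n) {p : Qb n → ℝ} (hp : ∀ I, 0 ≤ p I) : pop m p ≤ ∑ I, p I :=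
  Finset.sum_le_sum fun I _ => by split_ifs <;> simp [hp I]

lemma pop_zero {n : ℕ} (p : Qb (n + 1) → ℝ) : pop 0 p = ∑ I : Qb n, p (Fin.cons 1 I) := by
  simp [pop, sum_Qb]

lemma pop_succ {n : ℕ} (m : Fin n) (p : Qb (n + 1) → ℝ) :
    pop m.succ p = pop m (fun I => p (Fin.cons 0 I)) + pop m (fun I => p (Fin.cons 1 I)) := by
  simp [pop, sum_Qb]

lemma pop_lin {n : ℕ} (m : Fin n) (a b : ℝ) (p q : Qb n → ℝ) :
    pop m (fun I => a * p I + b * q I) = a * pop m p + b * pop m q := by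
  simp only [pop, Finset.mul_sum, ← Finset.sum_add_distrib]
  refine Finset.sum_congr rfl fun I _ => ?_
  split_ifs <;> simp

lemma pop_sum {n : ℕ} (m : Fin n) {α : Type} [Fintype α] (w : α → ℝ) (p : α → Qb n → ℝ) :
    pop m (fun I => ∑ a, w a * p a I) = ∑ a, w a * pop m (p a) := by
  simp only [pop, Finset.mul_sum]
  rw [Finset.sum_comm]
  refine Finset.sum_congr rfl fun I _ => ?_
  split_ifs <;> simp

/-- Classical subadditivity of the entropy. -/
lemma classical_bound (n : ℕ) : ∀ p : Qb n → ℝ, (∀ I, 0 ≤ p I) →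
    ∑ I, negMulLog (p I) - negMulLog (∑ I, p I)
      ≤ ∑ m, (∑ I, p I) * binEntropy (pop m p / ∑ I, p I) := by
  induction n with
  | zero => intro p _; simp
  | succ n ih =>
    intro p hp
    have h0 := ih (fun I => p (Fin.cons 0 I)) fun I => hp _
    have h1 := ih (fun I => p (Fin.cons 1 I)) fun I => hp _
    rw [Fin.sum_univ_succ, sum_Qb (fun I => negMulLog (p I)), sum_Qb p, pop_zero]
    simp only [pop_succ]
    set t0 := ∑ I : Qb n, p (Fin.cons 0 I) with ht0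
    set t1 := ∑ I : Qb n, p (Fin.cons 1 I) with ht1
    have a0 : 0 ≤ t0 := Finset.sum_nonneg fun I _ => hp _
    have a1 : 0 ≤ t1 := Finset.sum_nonneg fun I _ => hp _
    have e1 : negMulLog t1 + negMulLog t0 - negMulLog (t0 + t1)
        = (t0 + t1) * binEntropy (t1 / (t0 + t1)) := by
      rw [← persp_bin]
      rcases (add_nonneg a0 a1).eq_or_lt with h | h
      · have b0 : t0 = 0 := by linarith
        have b1 : t1 = 0 := by linarith
        simp [b0, b1]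
      · rw [show (t0 + t1) * (t1 / (t0 + t1)) = t1 by field_simp,
          show (t0 + t1) * (1 - t1 / (t0 + t1)) = t0 by field_simp; ring]
    have e2 : ∑ m : Fin n, t0 * binEntropy (pop m (fun I => p (Fin.cons 0 I)) / t0)
        + ∑ m : Fin n, t1 * binEntropy (pop m (fun I => p (Fin.cons 1 I)) / t1)
        ≤ ∑ m : Fin n, (t0 + t1) * binEntropy ((pop m (fun I => p (Fin.cons 0 I))
          + pop m (fun I => p (Fin.cons 1 I))) / (t0 + t1)) := by
      rw [← Finset.sum_add_distrib]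
      exact Finset.sum_le_sum fun m _ => persp_concave Real.strictConcave_binEntropy.concaveOn
        (pop_nonneg m fun I => hp _) (pop_le m fun I => hp _)
        (pop_nonneg m fun I => hp _) (pop_le m fun I => hp _)
    linarith

lemma ent_le_pop {n : ℕ} {σ : Matrix (Qb n) (Qb n) ℂ} (hσ : σ.PosSemidef)
    (h1 : σ.trace.re = 1) : ent σ ≤ ∑ m, binEntropy (pop m (dgl σ)) := by
  have a := pinch Real.concaveOn_negMulLog hσ.1 hσ.eigenvalues_nonneg 1 (by simp)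
  have b := classical_bound n (dgl σ) (dgl_nonneg hσ)
  rw [← tr_dgl, h1] at b
  simp only [dg_one] at a
  simp only [Real.negMulLog_one, sub_zero, one_mul, div_one] at b
  exact a.trans b

section gad
variable {γ ν : ℝ}

lemma dgl_gad0 {n : ℕ} (ρ : Matrix (Qb (n + 1)) (Qb (n + 1)) ℂ) (I : Qb n) :
    dgl (tensorPow (gad γ ν) (n + 1) ρ) (Fin.cons 0 I)
      = (1 - γ * ν) * dgl (tensorPow (gad γ ν) n (sub 0 0 ρ)) I
        + γ * (1 - ν) * dgl (tensorPow (gad γ ν) n (sub 1 1 ρ)) I := by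
  have h := congrFun (congrFun (gad_blocks γ ν ρ) (Sum.inl I)) (Sum.inl I)
  have h2 := congrArg Complex.re h
  simpa [chanBlk, dgl, eqv] using h2

lemma dgl_gad1 {n : ℕ} (ρ : Matrix (Qb (n + 1)) (Qb (n + 1)) ℂ) (I : Qb n) :
    dgl (tensorPow (gad γ ν) (n + 1) ρ) (Fin.cons 1 I)
      = γ * ν * dgl (tensorPow (gad γ ν) n (sub 0 0 ρ)) I
        + (1 - γ * (1 - ν)) * dgl (tensorPow (gad γ ν) n (sub 1 1 ρ)) I := by
  have h := congrFun (congrFun (gad_blocks γ ν ρ) (Sum.inr I)) (Sum.inr I)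
  have h2 := congrArg Complex.re h
  simpa [chanBlk, dgl, eqv] using h2

lemma tr_sub {n : ℕ} (ρ : Matrix (Qb (n + 1)) (Qb (n + 1)) ℂ) :
    ρ.trace.re = (sub 0 0 ρ).trace.re + (sub 1 1 ρ).trace.re := by
  simp only [tr_dgl, sum_Qb]; rfl

lemma pop_zero_sub {n : ℕ} (ρ : Matrix (Qb (n + 1)) (Qb (n + 1)) ℂ) :
    pop 0 (dgl ρ) = (sub 1 1 ρ).trace.re := by
  rw [pop_zero, tr_dgl]; rfl

lemma pop_succ_sub {n : ℕ} (m : Fin n) (ρ : Matrix (Qb (n + 1)) (Qb (n + 1)) ℂ) :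
    pop m.succ (dgl ρ) = pop m (dgl (sub 0 0 ρ)) + pop m (dgl (sub 1 1 ρ)) := by
  rw [pop_succ]; rfl

lemma tensor_tr (n : ℕ) : ∀ ρ : Matrix (Qb n) (Qb n) ℂ,
    (tensorPow (gad γ ν) n ρ).trace.re = ρ.trace.re := by
  induction n with
  | zero => intro ρ; simp [tensorPow, Matrix.trace]
  | succ n ih =>
    intro ρ
    rw [tr_sub ρ, ← ih (sub 0 0 ρ), ← ih (sub 1 1 ρ)]
    simp only [tr_dgl, sum_Qb, dgl_gad0, dgl_gad1, Finset.sum_add_distrib, ← Finset.mul_sum]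
    ring

lemma tensor_pop (n : ℕ) : ∀ (ρ : Matrix (Qb n) (Qb n) ℂ) (m : Fin n),
    pop m (dgl (tensorPow (gad γ ν) n ρ)) = (1 - γ) * pop m (dgl ρ) + γ * ν * ρ.trace.re := by
  induction n with
  | zero => intro ρ m; exact m.elim0
  | succ n ih =>
    intro ρ m
    refine Fin.cases ?_ (fun m => ?_) m
    · rw [pop_zero, pop_zero_sub, tr_sub ρ]
      simp only [dgl_gad1, Finset.sum_add_distrib, ← Finset.mul_sum, ← tr_dgl, tensor_tr]
      ring
    · rw [pop_succ, pop_succ_sub, tr_sub ρ]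
      simp only [dgl_gad0, dgl_gad1, pop_lin, ih]
      ring

/-- The output entropy of the tensor power is at least the sum of the one-qubit bounds. -/
lemma tensor_ent (hγ : γ ∈ Icc (0 : ℝ) 1) (hν : ν ∈ Icc (0 : ℝ) 1) (n : ℕ) :
    ∀ ρ : Matrix (Qb n) (Qb n) ℂ, ρ.PosSemidef →
      ∑ m, ρ.trace.re * ee γ ν (pop m (dgl ρ) / ρ.trace.re) ≤ entn (tensorPow (gad γ ν) n ρ) := by
  induction n with
  | zero =>
    intro ρ hρ
    have h := tensor_psd hγ hν hρ
    rw [entn, ent, trf_eq _ h.1, ← sum_eig h.1]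
    simp
  | succ n ih =>
    intro ρ hρ
    have hM : (fromBlocks (sub 0 0 ρ) (sub 0 1 ρ) (sub 1 0 ρ) (sub 1 1 ρ)).PosSemidef := by
      rw [← submatrix_eqv]; exact hρ.submatrix _
    have hX : (sub 0 0 ρ).PosSemidef := hρ.submatrix _
    have hZ : (sub 1 1 ρ).PosSemidef := hρ.submatrix _
    have h := key_gad hγ hν (tensor_block_psd hγ hν hM)
    rw [← gad_blocks, ent, trf_submatrix, ← ent, tensor_tr, tensor_tr] at h
    have h0 := ih _ hX
    have h1 := ih _ hZ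
    rw [Fin.sum_univ_succ, entn, tensor_tr, pop_zero_sub, tr_sub ρ]
    simp only [pop_succ_sub]
    have e2 : ∑ m : Fin n, ((sub 0 0 ρ).trace.re + (sub 1 1 ρ).trace.re)
          * ee γ ν ((pop m (dgl (sub 0 0 ρ)) + pop m (dgl (sub 1 1 ρ)))
            / ((sub 0 0 ρ).trace.re + (sub 1 1 ρ).trace.re))
        ≤ ∑ m : Fin n, (sub 0 0 ρ).trace.re
            * ee γ ν (pop m (dgl (sub 0 0 ρ)) / (sub 0 0 ρ).trace.re)
          + ∑ m : Fin n, (sub 1 1 ρ).trace.re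
            * ee γ ν (pop m (dgl (sub 1 1 ρ)) / (sub 1 1 ρ).trace.re) := by
      rw [← Finset.sum_add_distrib]
      exact Finset.sum_le_sum fun m _ => persp_convex (ee_convex hγ hν)
        (pop_nonneg m (dgl_nonneg hX)) (tr_dgl (sub 0 0 ρ) ▸ pop_le m (dgl_nonneg hX))
        (pop_nonneg m (dgl_nonneg hZ)) (tr_dgl (sub 1 1 ρ) ▸ pop_le m (dgl_nonneg hZ))
    linarith

end gad

end Vale.Agent.P358
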